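import Mathlib

open Finset

namespace Vale.Agent.Lib.P037

variable {n : ℕ}

/-- The pattern `[[1,0],[0,1]]` at rows `r1 < r2` and columns `c1 < c2`. -/
def Pat (A : Fin n → Fin n → Bool) (r1 r2 c1 c2 : Fin n) : Prop :=
  r1 < r2 ∧ c1 < c2 ∧ A r1 c1 = true ∧ A r1 c2 = false ∧ A r2 c1 = false ∧ A r2 c2 = true

instance (A : Fin n → Fin n → Bool) (r1 r2 c1 c2 : Fin n) : Decidable (Pat A r1 r2 c1 c2) := by
  unfold Pat; infer_instance

/-- The pattern `[[0,1],[1,0]]` at rows `r1 < r2` and columns `c1 < c2`. -/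
def Res (A : Fin n → Fin n → Bool) (r1 r2 c1 c2 : Fin n) : Prop :=
  r1 < r2 ∧ c1 < c2 ∧ A r1 c1 = false ∧ A r1 c2 = true ∧ A r2 c1 = true ∧ A r2 c2 = false

instance (A : Fin n → Fin n → Bool) (r1 r2 c1 c2 : Fin n) : Decidable (Res A r1 r2 c1 c2) := by
  unfold Res; infer_instance

/-- copies with given rows -/
def copyR (A : Fin n → Fin n → Bool) (r1 r2 : Fin n) : ℕ :=
  ((univ : Finset (Fin n × Fin n)).filter (fun c => Pat A r1 r2 c.1 c.2)).card

/-- copies with given columns -/
def copyC (A : Fin n → Fin n → Bool) (c1 c2 : Fin n) : ℕ :=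
  ((univ : Finset (Fin n × Fin n)).filter (fun r => Pat A r.1 r.2 c1 c2)).card

/-- total number of copies -/
def NN (A : Fin n → Fin n → Bool) : ℕ := ∑ p : Fin n × Fin n, copyR A p.1 p.2

theorem NN_eq_sum_copyC (A : Fin n → Fin n → Bool) :
    NN A = ∑ q : Fin n × Fin n, copyC A q.1 q.2 := by
  unfold NN copyR copyC
  exact Finset.sum_card_bipartiteAbove_eq_sum_card_bipartiteBelow
    (s := (univ : Finset (Fin n × Fin n))) (t := (univ : Finset (Fin n × Fin n)))
    (fun p q => Pat A p.1 p.2 q.1 q.2)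

/-- rows with value `(1,0)` on columns `(c,c')`. -/
def Pa (A : Fin n → Fin n → Bool) (c c' : Fin n) : Finset (Fin n) :=
  univ.filter (fun r => A r c = true ∧ A r c' = false)

/-- size of `Pa` -/
def pp (A : Fin n → Fin n → Bool) (c c' : Fin n) : ℕ := (Pa A c c').card

/-- Threshold lemma: two disjoint sets `X`, `Y` of a linear order with fewer than `(s+1)^2` pairs
`x < y` admit a cut point such that at most `s` elements of `X` lie below it and at most `s`
elements of `Y` lie above it. -/
theorem threshold_exists (X Y : Finset (Fin n)) (hd : Disjoint X Y) (s : ℕ)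
    (he : ((X ×ˢ Y).filter (fun p => p.1 < p.2)).card < (s + 1) * (s + 1)) :
    ∃ κ : ℕ, (X.filter (fun x => x.val < κ)).card ≤ s ∧
      (Y.filter (fun y => κ ≤ y.val)).card ≤ s := by
  classical
  set f : ℕ → ℕ := fun k => (X.filter (fun x => x.val < k)).card with hf
  have h0 : f 0 ≤ s := by simp [hf]
  set κ := Nat.findGreatest (fun k => f k ≤ s) n with hκ
  have hspec : f κ ≤ s := Nat.findGreatest_spec (P := fun k => f k ≤ s) (Nat.zero_le n) h0
  refine ⟨κ, hspec, ?_⟩
  by_contra hcon
  push Not at hcon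
  have hκn : κ < n := by
    by_contra hge
    push Not at hge
    have : (Y.filter (fun y => κ ≤ y.val)) = ∅ := by
      apply Finset.filter_eq_empty_iff.mpr
      intro y _
      have := y.isLt
      omega
    rw [this] at hcon
    simp at hcon
  have hnext : ¬ f (κ + 1) ≤ s := by
    apply Nat.findGreatest_is_greatest (P := fun k => f k ≤ s) (n := n)
    · exact Nat.lt_succ_self _
    · exact hκn
  push Not at hnext
  have hsub : (X.filter (fun x => x.val < κ + 1)) ×ˢ (Y.filter (fun y => κ ≤ y.val)) ⊆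
      (X ×ˢ Y).filter (fun p => p.1 < p.2) := by
    intro p hp
    simp only [mem_product, mem_filter] at hp ⊢
    refine ⟨⟨hp.1.1, hp.2.1⟩, ?_⟩
    have hne : p.1 ≠ p.2 := by
      intro h
      exact (Finset.disjoint_left.mp hd) hp.1.1 (h ▸ hp.2.1)
    have hle : p.1.val ≤ p.2.val := by omega
    have hne' : p.1.val ≠ p.2.val := fun h => hne (Fin.ext h)
    exact Fin.lt_def.mpr (by omega)
  have hc := Finset.card_le_card hsub
  rw [Finset.card_product] at hc
  have : (s + 1) * (s + 1) ≤ f (κ + 1) * (Y.filter (fun y => κ ≤ y.val)).card :=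
    Nat.mul_le_mul (by omega) (by omega)
  simp only [hf] at this
  omega

end Vale.Agent.Lib.P037
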