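import Vale.Agent.Lib.P037.Chain

open Finset

namespace Vale.Agent.Lib.P037

/-- The bin of a value `a`. -/
def binOf (g T θ a : ℕ) : ℕ := (a / g + T - θ) / T

/-- The representative size of a bin. -/
def szOf (g T θ b : ℕ) : ℕ := g * (θ + b * T - T)

theorem szOf_mono (g T θ : ℕ) {b b' : ℕ} (h : b ≤ b') : szOf g T θ b ≤ szOf g T θ b' := by
  unfold szOf
  apply Nat.mul_le_mul_left
  have : b * T ≤ b' * T := Nat.mul_le_mul_right _ h
  omega

theorem binOf_spec {g T θ a : ℕ} (hT : 0 < T) (hθ : θ < T) :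
    binOf g T θ a * T + θ ≤ a / g + T ∧ a / g + T < binOf g T θ a * T + T + θ := by
  unfold binOf
  generalize a / g = x
  have h1 := Nat.div_add_mod (x + T - θ) T
  have h2 := Nat.mod_lt (x + T - θ) hT
  rw [Nat.mul_comm] at h1
  constructor <;> omega

theorem szOf_binOf_le {g T θ a : ℕ} (hT : 0 < T) (hθ : θ < T) :
    szOf g T θ (binOf g T θ a) ≤ a := by
  have h := binOf_spec (g := g) (a := a) hT hθ
  unfold szOf
  calc g * (θ + binOf g T θ a * T - T) ≤ g * (a / g) := by
        apply Nat.mul_le_mul_left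
        generalize a / g = x at h
        generalize binOf g T θ a * T = y at h
        omega
    _ ≤ a := Nat.mul_div_le a g

theorem lt_szOf_binOf_add {g T θ a : ℕ} (hg : 0 < g) (hT : 0 < T) (hθ : θ < T) :
    a < szOf g T θ (binOf g T θ a) + g * T := by
  have h := binOf_spec (g := g) (a := a) hT hθ
  unfold szOf
  rw [← Nat.mul_add]
  calc a < g * (a / g + 1) := Nat.lt_mul_div_succ a hg
    _ ≤ _ := by
      apply Nat.mul_le_mul_left
      generalize a / g = x at h
      generalize binOf g T θ a * T = y at h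
      omega

theorem margin_of_bin_lt {g T θ a1 a2 : ℕ} (hg : 0 < g) (hT : 0 < T) (hθ : θ < T)
    (h1 : (a1 / g) % T ≠ θ) (h2 : (a2 / g) % T ≠ θ)
    (hb : binOf g T θ a2 < binOf g T θ a1) : a2 + g < a1 := by
  have hs1 := binOf_spec (g := g) (a := a1) hT hθ
  have hs2 := binOf_spec (g := g) (a := a2) hT hθ
  have hmul : binOf g T θ a2 * T + T ≤ binOf g T θ a1 * T := by
    have := Nat.mul_le_mul_right T (Nat.succ_le_of_lt hb)
    rw [Nat.succ_mul] at this
    exact this
  set v := θ + binOf g T θ a2 * T with hv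
  have hvmod : v % T = θ := by
    rw [hv, Nat.add_mul_mod_self_right, Nat.mod_eq_of_lt hθ]
  have h3 : a2 < g * (a2 / g + 1) := Nat.lt_mul_div_succ a2 hg
  have h4 : g * (a1 / g) ≤ a1 := Nat.mul_div_le a1 g
  have hne1 : a1 / g ≠ v := by
    intro h
    apply h1
    rw [h, hvmod]
  generalize a1 / g = x1 at *
  generalize a2 / g = x2 at *
  generalize binOf g T θ a2 * T = y2 at *
  generalize binOf g T θ a1 * T = y1 at *
  have hv1 : v ≤ x1 := by omega
  have hv2 : x2 < v := by omega
  have hx : x2 + 2 ≤ x1 := by omega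
  have h5 : g * (x2 + 2) ≤ g * x1 := Nat.mul_le_mul_left _ hx
  have h6 : g * (x2 + 2) = g * (x2 + 1) + g := by ring
  omega

theorem binOf_le_of_le {g T θ a N : ℕ} (hT : 0 < T) (ha : a ≤ N) :
    binOf g T θ a ≤ N / g / T + 1 := by
  unfold binOf
  have h1 : a / g ≤ N / g := Nat.div_le_div_right ha
  have h2 : (a / g + T - θ) / T ≤ (N / g + T) / T := by
    apply Nat.div_le_div_right
    generalize a / g = x at h1
    generalize N / g = y at h1
    omega
  have h3 : (N / g + T) / T = N / g / T + 1 := Nat.add_div_right _ hT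
  rw [← h3]
  exact h2

/-- Pigeonhole: some residue class of `x r` modulo `T` is rare. -/
theorem exists_rare_residue {ρ : Type*} (R : Finset ρ) (x : ρ → ℕ) {T : ℕ} (hT : 0 < T) :
    ∃ θ < T, T * (R.filter (fun r => x r % T = θ)).card ≤ R.card := by
  classical
  by_contra hcon
  push Not at hcon
  have hsum : ∑ θ ∈ range T, (R.filter (fun r => x r % T = θ)).card = R.card := by
    rw [eq_comm]
    apply Finset.card_eq_sum_card_fiberwise
    intro r _
    exact Finset.mem_coe.mpr (Finset.mem_range.mpr (Nat.mod_lt _ hT))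
  have hlt : ∑ _θ ∈ range T, R.card < ∑ θ ∈ range T, T * (R.filter (fun r => x r % T = θ)).card := by
    apply Finset.sum_lt_sum_of_nonempty
    · exact ⟨0, Finset.mem_range.mpr hT⟩
    · intro θ hθ
      exact hcon θ (Finset.mem_range.mp hθ)
  rw [← Finset.mul_sum, hsum] at hlt
  simp at hlt

end Vale.Agent.Lib.P037
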