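import Vale.Agent.Lib.P037.Greedy

open Finset

namespace Vale.Agent.Lib.P037

section rank

variable {α : Type*} [DecidableEq α]

/-- rank of an element inside `J` with respect to `key` -/
def rk (J : Finset α) (key : α → ℕ) (c : α) : ℕ := (J.filter (fun c' => key c' < key c)).card

theorem rk_lt_of_key_lt (J : Finset α) (key : α → ℕ) {c c' : α} (hc : c ∈ J)
    (h : key c < key c') : rk J key c < rk J key c' := by
  unfold rk
  apply Finset.card_lt_card
  rw [Finset.ssubset_iff_of_subset]
  · exact ⟨c, by simp [hc, h], by simp⟩
  · intro x hx
    simp only [mem_filter] at hx ⊢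
    exact ⟨hx.1, lt_trans hx.2 h⟩

theorem rk_le_of_key_le (J : Finset α) (key : α → ℕ) {c c' : α}
    (h : key c ≤ key c') : rk J key c ≤ rk J key c' := by
  unfold rk
  apply Finset.card_le_card
  intro x hx
  simp only [mem_filter] at hx ⊢
  exact ⟨hx.1, lt_of_lt_of_le hx.2 h⟩

theorem rk_lt_card (J : Finset α) (key : α → ℕ) {c : α} (hc : c ∈ J) : rk J key c < J.card := by
  unfold rk
  apply Finset.card_lt_card
  rw [Finset.ssubset_iff_of_subset (Finset.filter_subset _ _)]
  exact ⟨c, hc, by simp⟩

theorem rk_injOn (J : Finset α) (key : α → ℕ) (hinj : Set.InjOn key J) :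
    Set.InjOn (rk J key) J := by
  intro c hc c' hc' h
  rcases lt_trichotomy (key c) (key c') with h1 | h1 | h1
  · have := rk_lt_of_key_lt J key (Finset.mem_coe.mp hc) h1
    omega
  · exact hinj hc hc' h1
  · have := rk_lt_of_key_lt J key (Finset.mem_coe.mp hc') h1
    omega

theorem image_rk (J : Finset α) (key : α → ℕ) (hinj : Set.InjOn key J) :
    J.image (rk J key) = range J.card := by
  apply Finset.eq_of_subset_of_card_le
  · intro i hi
    obtain ⟨c, hc, rfl⟩ := Finset.mem_image.mp hi
    exact Finset.mem_range.mpr (rk_lt_card J key hc)
  · rw [Finset.card_image_of_injOn (rk_injOn J key hinj), Finset.card_range]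

theorem card_rk_lt (J : Finset α) (key : α → ℕ) (hinj : Set.InjOn key J) {x : ℕ}
    (hx : x ≤ J.card) : (J.filter (fun c => rk J key c < x)).card = x := by
  have h1 : ((J.filter (fun c => rk J key c < x)).image (rk J key)) = range x := by
    ext i
    simp only [mem_image, mem_filter, mem_range]
    constructor
    · rintro ⟨c, ⟨_, h⟩, rfl⟩
      exact h
    · intro hi
      have : i ∈ J.image (rk J key) := by
        rw [image_rk J key hinj]
        exact Finset.mem_range.mpr (by omega)
      obtain ⟨c, hc, rfl⟩ := Finset.mem_image.mp this
      exact ⟨c, ⟨hc, hi⟩, rfl⟩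
  have h2 := Finset.card_image_of_injOn
    (f := rk J key) (s := J.filter (fun c => rk J key c < x))
    (fun c hc c' hc' h => rk_injOn J key hinj
      (Finset.mem_coe.mpr (Finset.mem_filter.mp (Finset.mem_coe.mp hc)).1)
      (Finset.mem_coe.mpr (Finset.mem_filter.mp (Finset.mem_coe.mp hc')).1) h)
  rw [← h2, h1, Finset.card_range]

/-- The error of rounding a row `f` to a top segment of the order given by `key`. -/
theorem chain_error (J : Finset α) (key : α → ℕ) (hinj : Set.InjOn key J) (f : α → Bool) (s : ℕ)
    (hs : s ≤ (J.filter (fun c => f c = true)).card) :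
    ∃ z : ℕ,
      z * z ≤ ((J ×ˢ J).filter
        (fun q => key q.1 < key q.2 ∧ f q.1 = false ∧ f q.2 = true)).card ∧
      (J.filter (fun c => f c ≠ decide (rk J key c < s))).card ≤
        2 * z + ((J.filter (fun c => f c = true)).card - s) := by
  classical
  set a := (J.filter (fun c => f c = true)).card with ha
  have haJ : a ≤ J.card := Finset.card_filter_le _ _
  set Z := J.filter (fun c => rk J key c < a ∧ f c = false) with hZ
  set Z' := J.filter (fun c => ¬ rk J key c < a ∧ f c = true) with hZ'
  have hcardL := card_rk_lt J key hinj haJ
  -- the counts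
  have h1 : (J.filter (fun c => rk J key c < a ∧ f c = true)).card + Z.card = a := by
    have := Finset.card_filter_add_card_filter_not (s := J.filter (fun c => rk J key c < a))
      (fun c => f c = true)
    rw [hcardL, Finset.filter_filter, Finset.filter_filter] at this
    have hZeq : J.filter (fun c => rk J key c < a ∧ ¬ f c = true) = Z := by
      rw [hZ]; apply Finset.filter_congr; intro c _; simp
    rw [hZeq] at this
    exact this
  have h2 : (J.filter (fun c => rk J key c < a ∧ f c = true)).card + Z'.card = a := by
    have := Finset.card_filter_add_card_filter_not (s := J.filter (fun c => f c = true))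
      (fun c => rk J key c < a)
    rw [Finset.filter_filter, Finset.filter_filter] at this
    have e1 : J.filter (fun c => f c = true ∧ rk J key c < a) =
        J.filter (fun c => rk J key c < a ∧ f c = true) := by
      apply Finset.filter_congr; intro c _; tauto
    have e2 : J.filter (fun c => f c = true ∧ ¬ rk J key c < a) = Z' := by
      rw [hZ']; apply Finset.filter_congr; intro c _; tauto
    rw [e1, e2] at this
    exact this
  have hzz : Z'.card = Z.card := by omega
  refine ⟨Z.card, ?_, ?_⟩
  · have hsub : Z ×ˢ Z' ⊆ (J ×ˢ J).filter
        (fun q => key q.1 < key q.2 ∧ f q.1 = false ∧ f q.2 = true) := by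
      intro q hq
      simp only [hZ, hZ', mem_product, mem_filter] at hq ⊢
      obtain ⟨⟨h3, h4, h5⟩, h6, h7, h8⟩ := hq
      refine ⟨⟨h3, h6⟩, ?_, h5, h8⟩
      by_contra hk
      push Not at hk
      have := rk_le_of_key_le J key hk
      omega
    have := Finset.card_le_card hsub
    rw [Finset.card_product, hzz] at this
    exact this
  · have hsub : J.filter (fun c => f c ≠ decide (rk J key c < s)) ⊆
        Z ∪ Z' ∪ J.filter (fun c => s ≤ rk J key c ∧ rk J key c < a) := by
      intro c hc
      simp only [mem_filter] at hc
      obtain ⟨hcJ, hne⟩ := hc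
      simp only [hZ, hZ', mem_union, mem_filter]
      by_cases hfc : f c = true
      · have hnl : ¬ rk J key c < s := by
          intro hlt
          apply hne
          rw [hfc]
          simp [hlt]
        by_cases hra : rk J key c < a
        · right
          exact ⟨hcJ, by omega, hra⟩
        · left; right
          exact ⟨hcJ, hra, hfc⟩
      · have hfc' : f c = false := by simpa using hfc
        have hlt : rk J key c < s := by
          by_contra hnl
          apply hne
          rw [hfc']
          simp [hnl]
        left; left
        exact ⟨hcJ, by omega, hfc'⟩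
    have hmid : (J.filter (fun c => s ≤ rk J key c ∧ rk J key c < a)).card = a - s := by
      have hs' := card_rk_lt J key hinj (le_trans hs haJ)
      have := Finset.card_filter_add_card_filter_not (s := J.filter (fun c => rk J key c < a))
        (fun c => rk J key c < s)
      rw [hcardL, Finset.filter_filter, Finset.filter_filter] at this
      have e1 : J.filter (fun c => rk J key c < a ∧ rk J key c < s) =
          J.filter (fun c => rk J key c < s) := by
        apply Finset.filter_congr; intro c _
        constructor
        · exact fun h => h.2
        · exact fun h => ⟨by omega, h⟩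
      have e2 : J.filter (fun c => rk J key c < a ∧ ¬ rk J key c < s) =
          J.filter (fun c => s ≤ rk J key c ∧ rk J key c < a) := by
        apply Finset.filter_congr; intro c _
        constructor
        · exact fun h => ⟨by omega, h.1⟩
        · exact fun h => ⟨h.2, by omega⟩
      rw [e1, e2, hs'] at this
      omega
    have hc := Finset.card_le_card hsub
    have hu1 := Finset.card_union_le (Z ∪ Z') (J.filter (fun c => s ≤ rk J key c ∧ rk J key c < a))
    have hu2 := Finset.card_union_le Z Z'
    omega

end rank

end Vale.Agent.Lib.P037
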