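import Vale.Agent.Lib.P037.Bins

open Finset

namespace Vale.Agent.Lib.P037

variable {n : ℕ}

/-- the `i`-th interval of good columns -/
def JJ (D : Finset (Fin n)) (idx : Fin n → ℕ) (i : ℕ) : Finset (Fin n) :=
  univ.filter (fun c => c ∉ D ∧ idx c = i)

/-- number of ones of row `r` in the `i`-th interval -/
def aa (A : Fin n → Fin n → Bool) (D : Finset (Fin n)) (idx : Fin n → ℕ) (i : ℕ) (r : Fin n) : ℕ :=
  ((JJ D idx i).filter (fun c => A r c = true)).card

theorem copies_ge (A : Fin n → Fin n → Bool) (D : Finset (Fin n)) (idx : Fin n → ℕ)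
    (hmono : Monotone idx) {r1 r2 : Fin n} (h12 : r1 < r2) {i i' g : ℕ} (hii : i < i')
    (h1 : aa A D idx i r2 + g < aa A D idx i r1)
    (h2 : aa A D idx i' r1 + g < aa A D idx i' r2) :
    g * g ≤ copyR A r1 r2 := by
  classical
  set X := (JJ D idx i).filter (fun c => A r1 c = true ∧ A r2 c = false) with hX
  set Y := (JJ D idx i').filter (fun c => A r1 c = false ∧ A r2 c = true) with hY
  have hXg : g ≤ X.card := by
    have hsub : (JJ D idx i).filter (fun c => A r1 c = true) ⊆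
        (JJ D idx i).filter (fun c => A r2 c = true) ∪ X := by
      intro c hc
      simp only [hX, mem_union, mem_filter] at hc ⊢
      by_cases h : A r2 c = true
      · left; exact ⟨hc.1, h⟩
      · right; exact ⟨hc.1, hc.2, by simpa using h⟩
    have := (Finset.card_le_card hsub).trans (Finset.card_union_le _ _)
    unfold aa at h1
    omega
  have hYg : g ≤ Y.card := by
    have hsub : (JJ D idx i').filter (fun c => A r2 c = true) ⊆
        (JJ D idx i').filter (fun c => A r1 c = true) ∪ Y := by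
      intro c hc
      simp only [hY, mem_union, mem_filter] at hc ⊢
      by_cases h : A r1 c = true
      · left; exact ⟨hc.1, h⟩
      · right; exact ⟨hc.1, by simpa using h, hc.2⟩
    have := (Finset.card_le_card hsub).trans (Finset.card_union_le _ _)
    unfold aa at h2
    omega
  have hsub : X ×ˢ Y ⊆ (univ : Finset (Fin n × Fin n)).filter (fun c => Pat A r1 r2 c.1 c.2) := by
    intro q hq
    simp only [hX, hY, JJ, mem_product, mem_filter, mem_univ, true_and] at hq ⊢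
    obtain ⟨⟨⟨_, h3⟩, h4, h5⟩, ⟨_, h6⟩, h7, h8⟩ := hq
    refine ⟨h12, ?_, h4, h7, h5, h8⟩
    by_contra hle
    push Not at hle
    have := hmono hle
    omega
  have hc := Finset.card_le_card hsub
  rw [Finset.card_product] at hc
  exact (Nat.mul_le_mul hXg hYg).trans hc

theorem card_mul_le_NN (A : Fin n → Fin n → Bool) (E : Finset (Fin n × Fin n)) (v : ℕ)
    (hE : ∀ p ∈ E, v ≤ copyR A p.1 p.2) : E.card * v ≤ NN A := by
  unfold NN
  calc E.card * v = ∑ _p ∈ E, v := by simp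
    _ ≤ ∑ p ∈ E, copyR A p.1 p.2 := Finset.sum_le_sum hE
    _ ≤ _ := Finset.sum_le_sum_of_subset (Finset.subset_univ _)

/-- Removing few rows destroys all row conflicts. -/
theorem cleaning (A : Fin n → Fin n → Bool) (bin : ℕ → Fin n → ℕ) (G : Finset (Fin n))
    (Big : Finset ℕ) (m W g s' : ℕ) (hBig : Big ⊆ range m)
    (hW : ∀ i ∈ Big, ∀ r, bin i r < W)
    (hcop : ∀ r1 ∈ G, ∀ r2 ∈ G, r1 < r2 → ∀ i ∈ Big, ∀ i' ∈ Big, i < i' →
      bin i r2 < bin i r1 → bin i' r1 < bin i' r2 → g * g ≤ copyR A r1 r2)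
    (hN : NN A < (s' + 1) * (s' + 1) * (g * g)) :
    ∃ D2 : Finset (Fin n), D2.card ≤ m * m * W * W * W * W * (2 * s') ∧
      ∀ r1 ∈ G, ∀ r2 ∈ G, r1 < r2 → r1 ∉ D2 → r2 ∉ D2 → ∀ i ∈ Big, ∀ i' ∈ Big, i < i' →
        bin i r2 < bin i r1 → bin i' r1 < bin i' r2 → False := by
  classical
  set R1 : ℕ × ℕ × ℕ × ℕ × ℕ × ℕ → Finset (Fin n) := fun τ =>
    G.filter (fun r => bin τ.1 r = τ.2.2.1 ∧ bin τ.2.1 r = τ.2.2.2.1) with hR1
  set R2 : ℕ × ℕ × ℕ × ℕ × ℕ × ℕ → Finset (Fin n) := fun τ =>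
    G.filter (fun r => bin τ.1 r = τ.2.2.2.2.1 ∧ bin τ.2.1 r = τ.2.2.2.2.2) with hR2
  set rel : ℕ × ℕ × ℕ × ℕ × ℕ × ℕ → Prop := fun τ =>
    τ.1 ∈ Big ∧ τ.2.1 ∈ Big ∧ τ.1 < τ.2.1 ∧ τ.2.2.2.2.1 < τ.2.2.1 ∧ τ.2.2.2.1 < τ.2.2.2.2.2 with hrel
  have hthr : ∀ τ, ∃ κ : ℕ, rel τ → ((R1 τ).filter (fun x => x.val < κ)).card ≤ s' ∧
      ((R2 τ).filter (fun y => κ ≤ y.val)).card ≤ s' := by
    intro τ
    by_cases hτ : rel τ
    · obtain ⟨hi, hi', hii, hb, hb'⟩ := hτ
      have hd : Disjoint (R1 τ) (R2 τ) := by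
        rw [Finset.disjoint_left]
        intro r hr hr'
        simp only [hR1, hR2, mem_filter] at hr hr'
        omega
      set E := ((R1 τ) ×ˢ (R2 τ)).filter (fun p => p.1 < p.2) with hE
      have hEle : E.card * (g * g) ≤ NN A := by
        apply card_mul_le_NN
        intro p hp
        simp only [hE, hR1, hR2, mem_filter, mem_product] at hp
        obtain ⟨⟨⟨h1, h2, h3⟩, h4, h5, h6⟩, h7⟩ := hp
        exact hcop p.1 h1 p.2 h4 h7 τ.1 hi τ.2.1 hi' hii (by omega) (by omega)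
      have hElt : E.card < (s' + 1) * (s' + 1) := by
        by_contra hcon
        push Not at hcon
        have := Nat.mul_le_mul_right (g * g) hcon
        omega
      obtain ⟨κ, h⟩ := threshold_exists (R1 τ) (R2 τ) hd s' hElt
      exact ⟨κ, fun _ => h⟩
    · exact ⟨0, fun h => absurd h hτ⟩
  choose κ hκ using hthr
  set delτ : ℕ × ℕ × ℕ × ℕ × ℕ × ℕ → Finset (Fin n) := fun τ =>
    if rel τ then ((R1 τ).filter (fun x => x.val < κ τ)) ∪ ((R2 τ).filter (fun y => κ τ ≤ y.val))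
    else ∅ with hdel
  set IDX : Finset (ℕ × ℕ × ℕ × ℕ × ℕ × ℕ) :=
    range m ×ˢ range m ×ˢ range W ×ˢ range W ×ˢ range W ×ˢ range W with hIDX
  have hIDXcard : IDX.card = m * m * W * W * W * W := by
    simp only [hIDX, Finset.card_product, Finset.card_range]
    ring
  refine ⟨IDX.biUnion delτ, ?_, ?_⟩
  · rw [← hIDXcard]
    apply Finset.card_biUnion_le_card_mul
    intro τ _
    simp only [hdel]
    split_ifs with h
    · obtain ⟨h1, h2⟩ := hκ τ h
      refine (Finset.card_union_le _ _).trans ?_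
      omega
    · simp
  · intro r1 hr1 r2 hr2 h12 hd1 hd2 i hi i' hi' hii hb hb'
    set τ : ℕ × ℕ × ℕ × ℕ × ℕ × ℕ := (i, i', bin i r1, bin i' r1, bin i r2, bin i' r2) with hτ
    have hrelτ : rel τ := ⟨hi, hi', hii, hb, hb'⟩
    have hτI : τ ∈ IDX := by
      simp only [hIDX, hτ, mem_product, mem_range]
      exact ⟨Finset.mem_range.mp (hBig hi), Finset.mem_range.mp (hBig hi'), hW i hi r1,
        hW i' hi' r1, hW i hi r2, hW i' hi' r2⟩
    have hd1' : r1 ∉ delτ τ := fun h => hd1 (Finset.mem_biUnion.mpr ⟨τ, hτI, h⟩)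
    have hd2' : r2 ∉ delτ τ := fun h => hd2 (Finset.mem_biUnion.mpr ⟨τ, hτI, h⟩)
    simp only [hdel, if_pos hrelτ, mem_union, mem_filter, hR1, hR2, not_or, not_and, not_lt,
      not_le] at hd1' hd2'
    have h3 : κ τ ≤ r1.val := hd1'.1 ⟨hr1, rfl, rfl⟩
    have h4 : r2.val < κ τ := hd2'.2 ⟨hr2, rfl, rfl⟩
    have h5 : r1.val < r2.val := h12
    omega

/-- hamming distance -/
def ham (A B : Fin n → Fin n → Bool) : ℕ :=
  (univ.filter (fun q : Fin n × Fin n => A q.1 q.2 ≠ B q.1 q.2)).card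

/-- the matrix built from the structure -/
def BB (DR D : Finset (Fin n)) (idx : Fin n → ℕ) (Big : Finset ℕ) (key : Fin n → ℕ)
    (lv : ℕ → Fin n → ℕ) : Fin n → Fin n → Bool := fun r c =>
  decide (r ∉ DR ∧ c ∉ D ∧ idx c ∈ Big ∧ rk (JJ D idx (idx c)) key c < lv (idx c) r)

theorem BB_free (DR D : Finset (Fin n)) (idx : Fin n → ℕ) (Big : Finset ℕ) (key : Fin n → ℕ)
    (lv : ℕ → Fin n → ℕ) (hmono : Monotone idx)
    (hconf : ∀ r1 r2 : Fin n, r1 < r2 → r1 ∉ DR → r2 ∉ DR → ∀ i ∈ Big, ∀ i' ∈ Big, i < i' →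
      lv i r2 < lv i r1 → lv i' r1 < lv i' r2 → False)
    (r1 r2 c1 c2 : Fin n) : ¬ Pat (BB DR D idx Big key lv) r1 r2 c1 c2 := by
  rintro ⟨h12, hc12, e11, e12, e21, e22⟩
  simp only [BB, decide_eq_true_eq, decide_eq_false_iff_not, not_and, not_lt] at e11 e12 e21 e22
  obtain ⟨hr1, hc1, hb1, hlt1⟩ := e11
  obtain ⟨hr2, hc2, hb2, hlt2⟩ := e22
  have hle1 := e21 hr2 hc1 hb1
  have hle2 := e12 hr1 hc2 hb2
  have hidx : idx c1 ≤ idx c2 := hmono (le_of_lt hc12)
  rcases Nat.lt_or_ge (idx c1) (idx c2) with h | h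
  · exact hconf r1 r2 h12 hr1 hr2 _ hb1 _ hb2 h (by omega) (by omega)
  · have heq : idx c1 = idx c2 := by omega
    rw [heq] at hlt1 hle1
    omega

/-- The mismatch count of `BB`. -/
theorem ham_BB_le (A : Fin n → Fin n → Bool) (DR D : Finset (Fin n)) (idx : Fin n → ℕ)
    (Big : Finset ℕ) (key : Fin n → ℕ) (lv : ℕ → Fin n → ℕ) :
    ham A (BB DR D idx Big key lv) ≤ DR.card * n + n * D.card +
      n * (univ.filter (fun c : Fin n => c ∉ D ∧ idx c ∉ Big)).card +
      ∑ r : Fin n, ∑ i ∈ Big, ((JJ D idx i).filter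
        (fun c => A r c ≠ decide (rk (JJ D idx i) key c < lv i r))).card := by
  classical
  set S := univ.filter (fun c : Fin n => c ∉ D ∧ idx c ∉ Big) with hS
  set T4 : Finset (Fin n × Fin n) := univ.biUnion (fun r : Fin n => Big.biUnion (fun i =>
    ((JJ D idx i).filter (fun c => A r c ≠ decide (rk (JJ D idx i) key c < lv i r))).image
      (fun c => (r, c)))) with hT4
  have hsub : (univ.filter (fun q : Fin n × Fin n => A q.1 q.2 ≠ (BB DR D idx Big key lv) q.1 q.2)) ⊆
      (DR ×ˢ univ) ∪ (univ ×ˢ D) ∪ (univ ×ˢ S) ∪ T4 := by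
    intro q hq
    simp only [mem_filter, mem_univ, true_and] at hq
    simp only [mem_union, mem_product, mem_univ, true_and, and_true]
    by_cases h1 : q.1 ∈ DR
    · left; left; left; exact h1
    by_cases h2 : q.2 ∈ D
    · left; left; right; exact h2
    by_cases h3 : idx q.2 ∈ Big
    · right
      simp only [hT4, mem_biUnion, mem_univ, true_and, mem_image, mem_filter]
      refine ⟨q.1, idx q.2, h3, q.2, ⟨?_, ?_⟩, rfl⟩
      · simp [JJ, h2]
      · intro he
        apply hq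
        rw [he]
        simp only [BB]
        congr 1
        simp [h1, h2, h3]
    · left; right
      simp only [hS, mem_filter, mem_univ, true_and]
      exact ⟨h2, h3⟩
  have hT4card : T4.card ≤ ∑ r : Fin n, ∑ i ∈ Big, ((JJ D idx i).filter
        (fun c => A r c ≠ decide (rk (JJ D idx i) key c < lv i r))).card := by
    rw [hT4]
    refine Finset.card_biUnion_le.trans (Finset.sum_le_sum ?_)
    intro r _
    refine Finset.card_biUnion_le.trans (Finset.sum_le_sum ?_)
    intro i _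
    exact Finset.card_image_le
  unfold ham
  refine (Finset.card_le_card hsub).trans ?_
  refine (Finset.card_union_le _ _).trans ?_
  refine Nat.add_le_add ?_ hT4card
  refine (Finset.card_union_le _ _).trans ?_
  refine Nat.add_le_add ?_ ?_
  · refine (Finset.card_union_le _ _).trans ?_
    refine Nat.add_le_add ?_ ?_
    · simp [Finset.card_product]
    · simp [Finset.card_product]
  · simp [Finset.card_product]

end Vale.Agent.Lib.P037
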