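import Vale.Agent.Lib.P037.Errors

open Finset

namespace Vale.Agent.Lib.P037

variable {n : ℕ}

/-- Core construction: from the parameters one gets a pattern-free matrix with explicit distance. -/
theorem core (hn : 0 < n) (A : Fin n → Fin n → Bool) (K t s b g T W s' h : ℕ) (μ : ℝ)
    (hμ0 : 0 < μ) (hμ1 : μ ≤ 1)
    (hheavy : μ * ((n : ℝ) * n) + heavy A s ≤ ((b : ℝ) + 1) * ((b : ℝ) + 1))
    (hg : 0 < g) (hT : 0 < T) (hK : 0 < K) (hh : 0 < h)
    (hW : n / g / T + 1 < W)
    (hN : NN A < (s' + 1) * (s' + 1) * (g * g)) :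
    ∃ B : Fin n → Fin n → Bool, (∀ r1 r2 c1 c2, ¬ Pat B r1 r2 c1 c2) ∧
      (ham A B : ℝ) ≤
        (((t + 1 : ℕ) : ℝ) * n / T + ((t + 1) * (t + 1) * W * W * W * W * (2 * s') : ℕ)) * n +
        n * ((t * (2 * s) : ℕ) : ℝ) + n * (((t + 1 : ℕ) : ℝ) * n / h) +
        ((n : ℝ) * n / K + K * n * b + K * h * ((1 - μ) ^ t * ((n : ℝ) * n) +
          ((NN A : ℝ) / ((n : ℝ) * n)) / μ) + ((t + 1 : ℕ) : ℝ) * (n * (g * T))) := by
  classical
  obtain ⟨D, idx, hDcard, hmono, hidx, hbad⟩ := col_structure hn A s b μ hμ0 hμ1 hheavy t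
  set m := t + 1 with hm
  set Big := (range m).filter (fun i => n ≤ h * (JJ D idx i).card) with hBigdef
  have hBigsub : Big ⊆ range m := Finset.filter_subset _ _
  have hBigcard : Big.card ≤ m := by
    calc Big.card ≤ (range m).card := Finset.card_le_card hBigsub
      _ = m := Finset.card_range m
  have hBigprop : ∀ i ∈ Big, n ≤ h * (JJ D idx i).card := by
    intro i hi
    exact (Finset.mem_filter.mp hi).2
  -- small intervals
  set Sm := univ.filter (fun c : Fin n => c ∉ D ∧ idx c ∉ Big) with hSm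
  have hSmcard : h * Sm.card ≤ m * n := by
    have hsub : Sm ⊆ ((range m).filter (fun i => ¬ n ≤ h * (JJ D idx i).card)).biUnion
        (fun i => JJ D idx i) := by
      intro c hc
      simp only [hSm, mem_filter, mem_univ, true_and] at hc
      simp only [mem_biUnion, mem_filter, mem_range]
      have hlt : idx c < m := by
        have := hidx c
        omega
      refine ⟨idx c, ⟨hlt, ?_⟩, ?_⟩
      · intro hle
        apply hc.2
        exact Finset.mem_filter.mpr ⟨Finset.mem_range.mpr hlt, hle⟩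
      · simp [JJ, hc.1]
    have h1 := (Finset.card_le_card hsub).trans Finset.card_biUnion_le
    calc h * Sm.card ≤ h * ∑ i ∈ (range m).filter (fun i => ¬ n ≤ h * (JJ D idx i).card),
          (JJ D idx i).card := Nat.mul_le_mul_left _ h1
      _ = ∑ i ∈ (range m).filter (fun i => ¬ n ≤ h * (JJ D idx i).card),
          h * (JJ D idx i).card := Finset.mul_sum _ _ _
      _ ≤ ∑ _i ∈ (range m).filter (fun i => ¬ n ≤ h * (JJ D idx i).card), n := by
          apply Finset.sum_le_sum
          intro i hi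
          have := (Finset.mem_filter.mp hi).2
          omega
      _ = ((range m).filter (fun i => ¬ n ≤ h * (JJ D idx i).card)).card * n := by simp
      _ ≤ m * n := by
          apply Nat.mul_le_mul_right
          calc _ ≤ (range m).card := Finset.card_filter_le _ _
            _ = m := Finset.card_range m
  -- offsets
  have hres : ∀ i : ℕ, ∃ θ < T, T * ((univ : Finset (Fin n)).filter
      (fun r => (aa A D idx i r / g) % T = θ)).card ≤ (univ : Finset (Fin n)).card :=
    fun i => exists_rare_residue univ (fun r => aa A D idx i r / g) hT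
  choose θ hθ hθcard using hres
  set D1 := Big.biUnion (fun i => (univ : Finset (Fin n)).filter
      (fun r => (aa A D idx i r / g) % T = θ i)) with hD1
  have hD1card : T * D1.card ≤ m * n := by
    have h1 : D1.card ≤ ∑ i ∈ Big, ((univ : Finset (Fin n)).filter
      (fun r => (aa A D idx i r / g) % T = θ i)).card := Finset.card_biUnion_le
    calc T * D1.card ≤ T * ∑ i ∈ Big, ((univ : Finset (Fin n)).filter
          (fun r => (aa A D idx i r / g) % T = θ i)).card := Nat.mul_le_mul_left _ h1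
      _ = ∑ i ∈ Big, T * ((univ : Finset (Fin n)).filter
          (fun r => (aa A D idx i r / g) % T = θ i)).card := Finset.mul_sum _ _ _
      _ ≤ ∑ _i ∈ Big, n := by
          apply Finset.sum_le_sum
          intro i _
          have := hθcard i
          simpa using this
      _ = Big.card * n := by simp
      _ ≤ m * n := Nat.mul_le_mul_right _ hBigcard
  set bin : ℕ → Fin n → ℕ := fun i r => binOf g T (θ i) (aa A D idx i r) with hbin
  have haa : ∀ i r, aa A D idx i r ≤ n := by
    intro i r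
    unfold aa
    calc _ ≤ (univ : Finset (Fin n)).card := Finset.card_le_card (Finset.subset_univ _)
      _ = n := by simp
  have hbinW : ∀ i ∈ Big, ∀ r, bin i r < W := by
    intro i _ r
    have := binOf_le_of_le (g := g) (θ := θ i) hT (haa i r)
    simp only [hbin]
    omega
  set G := univ \ D1 with hG
  have hGres : ∀ r ∈ G, ∀ i ∈ Big, (aa A D idx i r / g) % T ≠ θ i := by
    intro r hr i hi he
    simp only [hG, mem_sdiff, mem_univ, true_and] at hr
    apply hr
    exact Finset.mem_biUnion.mpr ⟨i, hi, by simp [he]⟩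
  obtain ⟨D2, hD2card, hD2⟩ := cleaning A bin G Big m W g s' hBigsub hbinW
    (by
      intro r1 hr1 r2 hr2 h12 i hi i' hi' hii hb hb'
      have hm1 := margin_of_bin_lt hg hT (hθ i) (hGres r1 hr1 i hi) (hGres r2 hr2 i hi) hb
      have hm2 := margin_of_bin_lt hg hT (hθ i') (hGres r2 hr2 i' hi') (hGres r1 hr1 i' hi') hb'
      exact copies_ge A D idx hmono h12 hii hm1 hm2) hN
  set DR := D1 ∪ D2 with hDR
  set lv : ℕ → Fin n → ℕ := fun i r => szOf g T (θ i) (bin i r) with hlv
  refine ⟨BB DR D idx Big (keyOf A) lv, ?_, ?_⟩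
  · apply BB_free DR D idx Big (keyOf A) lv hmono
    intro r1 r2 h12 hr1 hr2 i hi i' hi' hii hl hl'
    have hr1' : r1 ∈ G := by
      simp only [hG, mem_sdiff, mem_univ, true_and]
      exact fun h => hr1 (Finset.mem_union_left _ h)
    have hr2' : r2 ∈ G := by
      simp only [hG, mem_sdiff, mem_univ, true_and]
      exact fun h => hr2 (Finset.mem_union_left _ h)
    have hd1 : r1 ∉ D2 := fun h => hr1 (Finset.mem_union_right _ h)
    have hd2 : r2 ∉ D2 := fun h => hr2 (Finset.mem_union_right _ h)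
    refine hD2 r1 hr1' r2 hr2' h12 hd1 hd2 i hi i' hi' hii ?_ ?_
    · by_contra hcon
      push Not at hcon
      have := szOf_mono g T (θ i) hcon
      simp only [hlv] at hl
      omega
    · by_contra hcon
      push Not at hcon
      have := szOf_mono g T (θ i') hcon
      simp only [hlv] at hl'
      omega
  · have h1 := ham_BB_le A DR D idx Big (keyOf A) lv
    have h2 := sum_mism_le A D idx Big g T b h K θ hg hT hK hn hθ hBigprop
    have h1R : (ham A (BB DR D idx Big (keyOf A) lv) : ℝ) ≤ (DR.card : ℝ) * n + n * (D.card : ℝ) +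
        n * (Sm.card : ℝ) +
        ((∑ r : Fin n, ∑ i ∈ Big, ((JJ D idx i).filter
        (fun c => A r c ≠ decide (rk (JJ D idx i) (keyOf A) c < lv i r))).card : ℕ) : ℝ) := by
      exact_mod_cast h1
    have hnR : (0 : ℝ) < n := by exact_mod_cast hn
    have hTR : (0 : ℝ) < T := by exact_mod_cast hT
    have hhR : (0 : ℝ) < h := by exact_mod_cast hh
    have hD1R : (D1.card : ℝ) ≤ ((t + 1 : ℕ) : ℝ) * n / T := by
      rw [le_div_iff₀ hTR]
      have : (T : ℝ) * (D1.card : ℝ) ≤ ((t + 1 : ℕ) : ℝ) * n := by exact_mod_cast hD1card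
      linarith
    have hSmR : (Sm.card : ℝ) ≤ ((t + 1 : ℕ) : ℝ) * n / h := by
      rw [le_div_iff₀ hhR]
      have : (h : ℝ) * (Sm.card : ℝ) ≤ ((t + 1 : ℕ) : ℝ) * n := by exact_mod_cast hSmcard
      linarith
    have hD2R : (D2.card : ℝ) ≤ ((t + 1) * (t + 1) * W * W * W * W * (2 * s') : ℕ) := by
      exact_mod_cast hD2card
    have hDRR : (DR.card : ℝ) ≤ (D1.card : ℝ) + D2.card := by
      exact_mod_cast Finset.card_union_le D1 D2
    have hDR2 : (D.card : ℝ) ≤ ((t * (2 * s) : ℕ) : ℝ) := by exact_mod_cast hDcard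
    have hBigR : (Big.card : ℝ) ≤ ((t + 1 : ℕ) : ℝ) := by exact_mod_cast hBigcard
    have hkh : (0 : ℝ) ≤ K * h := by positivity
    have hbad' : (K : ℝ) * h *
        (((badPairs A b).filter (fun q => q.1 ∉ D ∧ q.2 ∉ D ∧ idx q.1 = idx q.2)).card : ℝ) ≤
        K * h * ((1 - μ) ^ t * ((n : ℝ) * n) + ((NN A : ℝ) / ((n : ℝ) * n)) / μ) :=
      mul_le_mul_of_nonneg_left hbad hkh
    have hgT : (Big.card : ℝ) * (n * (g * T)) ≤ ((t + 1 : ℕ) : ℝ) * (n * (g * T)) :=
      mul_le_mul_of_nonneg_right hBigR (by positivity)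
    have e1 : (DR.card : ℝ) * n ≤ (((t + 1 : ℕ) : ℝ) * n / T +
        ((t + 1) * (t + 1) * W * W * W * W * (2 * s') : ℕ)) * n :=
      mul_le_mul_of_nonneg_right (by linarith) hnR.le
    have e2 : (n : ℝ) * (D.card : ℝ) ≤ n * ((t * (2 * s) : ℕ) : ℝ) :=
      mul_le_mul_of_nonneg_left hDR2 hnR.le
    have e3 : (n : ℝ) * (Sm.card : ℝ) ≤ n * (((t + 1 : ℕ) : ℝ) * n / h) :=
      mul_le_mul_of_nonneg_left hSmR hnR.le
    have hsumeq : ((∑ r : Fin n, ∑ i ∈ Big, ((JJ D idx i).filter
        (fun c => A r c ≠ decide (rk (JJ D idx i) (keyOf A) c < lv i r))).card : ℕ) : ℝ) =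
        ((∑ r : Fin n, ∑ i ∈ Big, ((JJ D idx i).filter (fun c =>
        A r c ≠ decide (rk (JJ D idx i) (keyOf A) c <
        szOf g T (θ i) (binOf g T (θ i) (aa A D idx i r))))).card : ℕ) : ℝ) := rfl
    rw [hsumeq] at h1R
    linarith

end Vale.Agent.Lib.P037
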