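import Vale.Agent.Lib.P037.Clean

open Finset

namespace Vale.Agent.Lib.P037

variable {n : ℕ}

/-- number of ones of a column -/
def dens (A : Fin n → Fin n → Bool) (c : Fin n) : ℕ := (univ.filter (fun r => A r c = true)).card

/-- the sorting key of columns: denser columns first, ties broken by position -/
def keyOf (A : Fin n → Fin n → Bool) (c : Fin n) : ℕ := (n - dens A c) * n + c.val

theorem keyOf_inj (A : Fin n → Fin n → Bool) : Function.Injective (keyOf A) := by
  intro c c' h
  unfold keyOf at h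
  have h1 : ((n - dens A c) * n + c.val) % n = ((n - dens A c') * n + c'.val) % n := by rw [h]
  rw [Nat.add_comm, Nat.add_mul_mod_self_right, Nat.add_comm, Nat.add_mul_mod_self_right,
    Nat.mod_eq_of_lt c.isLt, Nat.mod_eq_of_lt c'.isLt] at h1
  exact Fin.ext h1

theorem dens_le (A : Fin n → Fin n → Bool) (c : Fin n) : dens A c ≤ n := by
  unfold dens
  calc _ ≤ (univ : Finset (Fin n)).card := Finset.card_filter_le _ _
    _ = n := by simp

theorem dens_le_of_key_lt (A : Fin n → Fin n → Bool) {c c' : Fin n}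
    (h : keyOf A c < keyOf A c') : dens A c' ≤ dens A c := by
  by_contra hcon
  push Not at hcon
  have h1 := dens_le A c'
  have h2 : (n - dens A c') + 1 ≤ n - dens A c := by omega
  have h3 : ((n - dens A c') + 1) * n ≤ (n - dens A c) * n := Nat.mul_le_mul_right _ h2
  have h4 : ((n - dens A c') + 1) * n = (n - dens A c') * n + n := by ring
  unfold keyOf at h
  have h5 := c'.isLt
  omega

theorem dens_eq (A : Fin n → Fin n → Bool) (c c' : Fin n) :
    dens A c = (univ.filter (fun r => A r c = true ∧ A r c' = true)).card + pp A c c' := by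
  unfold dens pp Pa
  have := Finset.card_filter_add_card_filter_not (s := univ.filter (fun r => A r c = true))
    (fun r => A r c' = true)
  rw [Finset.filter_filter, Finset.filter_filter] at this
  rw [← this]
  congr 2
  apply Finset.filter_congr
  intro r _
  simp

theorem pp_le_of_key_lt (A : Fin n → Fin n → Bool) {c c' : Fin n}
    (h : keyOf A c < keyOf A c') : pp A c' c ≤ pp A c c' := by
  have h1 := dens_le_of_key_lt A h
  have h2 := dens_eq A c c'
  have h3 := dens_eq A c' c
  have h4 : univ.filter (fun r => A r c' = true ∧ A r c = true) =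
      univ.filter (fun r => A r c = true ∧ A r c' = true) := by
    apply Finset.filter_congr
    intro r _
    tauto
  rw [h4] at h3
  omega

/-- inversions of row `r` in the column set `J` -/
def invR (A : Fin n → Fin n → Bool) (J : Finset (Fin n)) (r : Fin n) : ℕ :=
  ((J ×ˢ J).filter (fun q => keyOf A q.1 < keyOf A q.2 ∧ A r q.1 = false ∧ A r q.2 = true)).card

theorem pp_le_n (A : Fin n → Fin n → Bool) (c c' : Fin n) : pp A c c' ≤ n := by
  unfold pp Pa
  calc _ ≤ (univ : Finset (Fin n)).card := Finset.card_filter_le _ _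
    _ = n := by simp

theorem sum_invR_le (A : Fin n → Fin n → Bool) (J : Finset (Fin n)) (b : ℕ) :
    ∑ r : Fin n, invR A J r ≤
      J.card * J.card * b + n * ((badPairs A b).filter (fun q => q.1 ∈ J ∧ q.2 ∈ J)).card := by
  classical
  set W := (J ×ˢ J).filter (fun q => keyOf A q.1 < keyOf A q.2) with hW
  have h1 : ∑ r : Fin n, invR A J r = ∑ q ∈ W, pp A q.2 q.1 := by
    have h2 : ∀ r : Fin n, invR A J r = (W.filter (fun q => A r q.1 = false ∧ A r q.2 = true)).card := by
      intro r
      unfold invR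
      rw [hW, Finset.filter_filter]
    simp only [h2]
    have h3 := Finset.sum_card_bipartiteAbove_eq_sum_card_bipartiteBelow
      (s := (univ : Finset (Fin n))) (t := W) (fun r q => A r q.1 = false ∧ A r q.2 = true)
    unfold Finset.bipartiteAbove Finset.bipartiteBelow at h3
    rw [h3]
    apply Finset.sum_congr rfl
    intro q _
    unfold pp Pa
    congr 1
    apply Finset.filter_congr
    intro r _
    tauto
  rw [h1]
  set W1 := W.filter (fun q => b < pp A q.2 q.1) with hW1
  have h4 : ∑ q ∈ W, pp A q.2 q.1 ≤ W.card * b + n * W1.card := by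
    have h5 : ∀ q ∈ W, pp A q.2 q.1 ≤ b + (if b < pp A q.2 q.1 then n else 0) := by
      intro q _
      split_ifs with h
      · have := pp_le_n A q.2 q.1
        omega
      · omega
    calc _ ≤ ∑ q ∈ W, (b + (if b < pp A q.2 q.1 then n else 0)) := Finset.sum_le_sum h5
      _ = W.card * b + n * W1.card := by
        rw [Finset.sum_add_distrib, Finset.sum_ite, hW1]
        simp [mul_comm]
  refine h4.trans (Nat.add_le_add ?_ ?_)
  · apply Nat.mul_le_mul_right
    calc W.card ≤ (J ×ˢ J).card := Finset.card_filter_le _ _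
      _ = J.card * J.card := Finset.card_product _ _
  · apply Nat.mul_le_mul_left
    apply Finset.card_le_card_of_injOn (fun q => if q.1 < q.2 then q else (q.2, q.1))
    · intro q hq
      have hq' := Finset.mem_coe.mp hq
      simp only [hW1, hW, mem_filter, mem_product] at hq'
      obtain ⟨⟨⟨h6, h7⟩, h8⟩, h9⟩ := hq'
      have h10 := pp_le_of_key_lt A h8
      have hne : q.1 ≠ q.2 := fun h => by rw [h] at h8; exact lt_irrefl _ h8
      apply Finset.mem_coe.mpr
      simp only [badPairs, mem_filter, mem_univ, true_and]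
      split_ifs with h
      · exact ⟨⟨h, lt_of_lt_of_le h9 h10, h9⟩, h6, h7⟩
      · have h11 : q.2 < q.1 := lt_of_le_of_ne (not_lt.mp h) (Ne.symm hne)
        exact ⟨⟨h11, h9, lt_of_lt_of_le h9 h10⟩, h7, h6⟩
    · intro q hq q' hq' heq
      have hq1 := Finset.mem_coe.mp hq
      have hq2 := Finset.mem_coe.mp hq'
      simp only [hW1, hW, mem_filter, mem_product] at hq1 hq2
      have h8 := hq1.1.2
      have h8' := hq2.1.2
      simp only at heq
      split_ifs at heq
      · exact heq
      · exfalso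
        rw [heq] at h8
        simp only at h8
        omega
      · exfalso
        rw [← heq] at h8'
        simp only at h8'
        omega
      · exact Prod.ext (congrArg Prod.snd heq) (congrArg Prod.fst heq)

theorem sum_JJ_le (D : Finset (Fin n)) (idx : Fin n → ℕ) (Big : Finset ℕ) :
    ∑ i ∈ Big, (JJ D idx i).card ≤ n := by
  classical
  have h1 : ∀ i, JJ D idx i = (univ.filter (fun c : Fin n => c ∉ D)).filter (fun c => idx c = i) := by
    intro i
    unfold JJ
    rw [Finset.filter_filter]
  simp only [h1]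
  rw [Finset.sum_card_fiberwise_eq_card_filter]
  calc _ ≤ (univ : Finset (Fin n)).card :=
        Finset.card_le_card (Finset.subset_univ _)
    _ = n := by simp

theorem sum_bad_le (A : Fin n → Fin n → Bool) (b : ℕ) (D : Finset (Fin n)) (idx : Fin n → ℕ)
    (Big : Finset ℕ) :
    ∑ i ∈ Big, ((badPairs A b).filter (fun q => q.1 ∈ JJ D idx i ∧ q.2 ∈ JJ D idx i)).card ≤
      ((badPairs A b).filter (fun q => q.1 ∉ D ∧ q.2 ∉ D ∧ idx q.1 = idx q.2)).card := by
  classical
  set Q := (badPairs A b).filter (fun q => q.1 ∉ D ∧ q.2 ∉ D ∧ idx q.1 = idx q.2) with hQ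
  have h1 : ∀ i, ((badPairs A b).filter (fun q => q.1 ∈ JJ D idx i ∧ q.2 ∈ JJ D idx i)).card ≤
      (Q.filter (fun q => idx q.1 = i)).card := by
    intro i
    apply Finset.card_le_card
    intro q hq
    simp only [hQ, JJ, mem_filter, mem_univ, true_and] at hq ⊢
    obtain ⟨h2, ⟨h3, h4⟩, h5, h6⟩ := hq
    exact ⟨⟨h2, h3, h5, by omega⟩, h4⟩
  calc _ ≤ ∑ i ∈ Big, (Q.filter (fun q => idx q.1 = i)).card := Finset.sum_le_sum (fun i _ => h1 i)
    _ = (Q.filter (fun q => idx q.1 ∈ Big)).card :=
        Finset.sum_card_fiberwise_eq_card_filter _ _ _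
    _ ≤ Q.card := Finset.card_filter_le _ _

/-- AM-GM in the form used for row errors. -/
theorem two_mul_le_add {z x : ℝ} (hx : 0 < x) : 2 * z ≤ x + z * z / x := by
  have h : 0 ≤ (x - z) * (x - z) / x := div_nonneg (mul_self_nonneg _) hx.le
  have h2 : (x - z) * (x - z) / x = x - 2 * z + z * z / x := by
    field_simp
    ring
  linarith

/-- The total row error of the rounding. -/
theorem sum_mism_le (A : Fin n → Fin n → Bool) (D : Finset (Fin n)) (idx : Fin n → ℕ)
    (Big : Finset ℕ) (g T b h K : ℕ) (θ : ℕ → ℕ) (hg : 0 < g) (hT : 0 < T) (hK : 0 < K)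
    (hn : 0 < n) (hθ : ∀ i, θ i < T)
    (hBig : ∀ i ∈ Big, n ≤ h * (JJ D idx i).card) :
    ((∑ r : Fin n, ∑ i ∈ Big, ((JJ D idx i).filter (fun c =>
      A r c ≠ decide (rk (JJ D idx i) (keyOf A) c <
        szOf g T (θ i) (binOf g T (θ i) (aa A D idx i r))))).card : ℕ) : ℝ) ≤
      (n : ℝ) * n / K + K * n * b +
        K * h * (((badPairs A b).filter (fun q => q.1 ∉ D ∧ q.2 ∉ D ∧ idx q.1 = idx q.2)).card : ℝ) +
        Big.card * (n * (g * T)) := by
  classical
  have hKR : (0 : ℝ) < K := by exact_mod_cast hK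
  have hnR : (0 : ℝ) < n := by exact_mod_cast hn
  -- the bound for a single interval
  have hone : ∀ i ∈ Big, ((∑ r : Fin n, ((JJ D idx i).filter (fun c =>
      A r c ≠ decide (rk (JJ D idx i) (keyOf A) c <
        szOf g T (θ i) (binOf g T (θ i) (aa A D idx i r))))).card : ℕ) : ℝ) ≤
      (n : ℝ) * (JJ D idx i).card / K + K * (JJ D idx i).card * b +
        K * h * (((badPairs A b).filter (fun q => q.1 ∈ JJ D idx i ∧ q.2 ∈ JJ D idx i)).card : ℝ) +
        n * (g * T) := by
    intro i hi
    set J := JJ D idx i with hJ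
    have hJpos : 0 < J.card := by
      by_contra hcon
      have : J.card = 0 := by omega
      have h1 := hBig i hi
      rw [← hJ, this] at h1
      omega
    have hJR : (0 : ℝ) < J.card := by exact_mod_cast hJpos
    set x : ℝ := (J.card : ℝ) / K with hx
    have hxpos : 0 < x := by positivity
    have hrow : ∀ r : Fin n, ((((J.filter (fun c =>
        A r c ≠ decide (rk J (keyOf A) c <
          szOf g T (θ i) (binOf g T (θ i) (aa A D idx i r))))).card : ℕ)) : ℝ) ≤
        x + (invR A J r : ℝ) / x + (g * T : ℕ) := by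
      intro r
      have hs : szOf g T (θ i) (binOf g T (θ i) (aa A D idx i r)) ≤
          (J.filter (fun c => A r c = true)).card := szOf_binOf_le hT (hθ i)
      obtain ⟨z, hz1, hz2⟩ := chain_error J (keyOf A)
        (fun a _ b _ hab => keyOf_inj A hab) (fun c => A r c)
        (szOf g T (θ i) (binOf g T (θ i) (aa A D idx i r))) hs
      have hlt : aa A D idx i r < szOf g T (θ i) (binOf g T (θ i) (aa A D idx i r)) + g * T :=
        lt_szOf_binOf_add hg hT (hθ i)
      have hz3 : (J.filter (fun c => A r c ≠ decide (rk J (keyOf A) c <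
          szOf g T (θ i) (binOf g T (θ i) (aa A D idx i r))))).card ≤ 2 * z + g * T := by
        have e : (J.filter (fun c => A r c = true)).card = aa A D idx i r := rfl
        rw [e] at hz2
        omega
      have hz4 : ((J.filter (fun c => A r c ≠ decide (rk J (keyOf A) c <
          szOf g T (θ i) (binOf g T (θ i) (aa A D idx i r))))).card : ℝ) ≤
          2 * (z : ℝ) + ((g * T : ℕ) : ℝ) := by exact_mod_cast hz3
      have hz5 : (z : ℝ) * z ≤ (invR A J r : ℝ) := by
        unfold invR
        exact_mod_cast hz1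
      have hz6 := two_mul_le_add (z := (z : ℝ)) hxpos
      have hz7 : (z : ℝ) * z / x ≤ (invR A J r : ℝ) / x :=
        div_le_div_of_nonneg_right hz5 (le_of_lt hxpos)
      linarith
    have hsum1 : ((∑ r : Fin n, ((J.filter (fun c =>
        A r c ≠ decide (rk J (keyOf A) c <
          szOf g T (θ i) (binOf g T (θ i) (aa A D idx i r))))).card) : ℕ) : ℝ) ≤
        ∑ r : Fin n, (x + (invR A J r : ℝ) / x + (g * T : ℕ)) := by
      push_cast
      apply Finset.sum_le_sum
      intro r _
      have := hrow r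
      push_cast at this
      exact this
    refine hsum1.trans ?_
    have hsum2 : ∑ r : Fin n, (x + (invR A J r : ℝ) / x + (g * T : ℕ)) =
        (n : ℝ) * x + (∑ r : Fin n, (invR A J r : ℝ)) / x + n * ((g * T : ℕ) : ℝ) := by
      rw [Finset.sum_add_distrib, Finset.sum_add_distrib, Finset.sum_div]
      simp only [Finset.sum_const, Finset.card_univ, Fintype.card_fin, nsmul_eq_mul]
    rw [hsum2]
    have hinv : ((∑ r : Fin n, invR A J r : ℕ) : ℝ) ≤ (J.card : ℝ) * J.card * b +
        n * (((badPairs A b).filter (fun q => q.1 ∈ J ∧ q.2 ∈ J)).card : ℝ) := by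
      exact_mod_cast sum_invR_le A J b
    push_cast at hinv
    set Bd : ℝ := (((badPairs A b).filter (fun q => q.1 ∈ J ∧ q.2 ∈ J)).card : ℝ) with hBd
    have hBd0 : 0 ≤ Bd := by positivity
    have hnh : (n : ℝ) ≤ h * (J.card : ℝ) := by exact_mod_cast hBig i hi
    have hdiv : (∑ r : Fin n, (invR A J r : ℝ)) / x ≤ K * J.card * b + K * h * Bd := by
      rw [div_le_iff₀ hxpos]
      have h2 : (K : ℝ) * J.card * b * x = (J.card : ℝ) * J.card * b := by
        rw [hx]; field_simp
      have h3 : (K : ℝ) * h * Bd * x = (h : ℝ) * J.card * Bd := by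
        rw [hx]; field_simp
      have h4 : (n : ℝ) * Bd ≤ (h : ℝ) * J.card * Bd :=
        mul_le_mul_of_nonneg_right hnh hBd0
      calc _ ≤ (J.card : ℝ) * J.card * b + n * Bd := hinv
        _ ≤ (J.card : ℝ) * J.card * b + (h : ℝ) * J.card * Bd := by linarith
        _ = _ := by rw [add_mul, h2, h3]
    have hfirst : (n : ℝ) * x = (n : ℝ) * J.card / K := by
      rw [hx]; ring
    rw [hfirst]
    push_cast
    linarith
  -- sum over intervals
  rw [Finset.sum_comm]
  have hcast : ((∑ i ∈ Big, ∑ r : Fin n, ((JJ D idx i).filter (fun c =>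
      A r c ≠ decide (rk (JJ D idx i) (keyOf A) c <
        szOf g T (θ i) (binOf g T (θ i) (aa A D idx i r))))).card : ℕ) : ℝ) =
      ∑ i ∈ Big, ((∑ r : Fin n, ((JJ D idx i).filter (fun c =>
      A r c ≠ decide (rk (JJ D idx i) (keyOf A) c <
        szOf g T (θ i) (binOf g T (θ i) (aa A D idx i r))))).card : ℕ) : ℝ) := by
    push_cast
    rfl
  rw [hcast]
  refine (Finset.sum_le_sum hone).trans ?_
  rw [Finset.sum_add_distrib, Finset.sum_add_distrib, Finset.sum_add_distrib]
  have hJsum : (∑ i ∈ Big, ((JJ D idx i).card : ℝ)) ≤ n := by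
    exact_mod_cast sum_JJ_le D idx Big
  have hBsum : (∑ i ∈ Big, (((badPairs A b).filter
      (fun q => q.1 ∈ JJ D idx i ∧ q.2 ∈ JJ D idx i)).card : ℝ)) ≤
      (((badPairs A b).filter (fun q => q.1 ∉ D ∧ q.2 ∉ D ∧ idx q.1 = idx q.2)).card : ℝ) := by
    exact_mod_cast sum_bad_le A b D idx Big
  have e1 : ∑ i ∈ Big, (n : ℝ) * ((JJ D idx i).card : ℝ) / K =
      (n : ℝ) * (∑ i ∈ Big, ((JJ D idx i).card : ℝ)) / K := by
    rw [Finset.mul_sum, Finset.sum_div]
  have e2 : ∑ i ∈ Big, (K : ℝ) * ((JJ D idx i).card : ℝ) * b =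
      (K : ℝ) * (∑ i ∈ Big, ((JJ D idx i).card : ℝ)) * b := by
    rw [Finset.mul_sum, Finset.sum_mul]
  have e3 : ∑ i ∈ Big, (K : ℝ) * h * (((badPairs A b).filter
      (fun q => q.1 ∈ JJ D idx i ∧ q.2 ∈ JJ D idx i)).card : ℝ) =
      (K : ℝ) * h * ∑ i ∈ Big, (((badPairs A b).filter
      (fun q => q.1 ∈ JJ D idx i ∧ q.2 ∈ JJ D idx i)).card : ℝ) := by
    rw [Finset.mul_sum]
  rw [e1, e2, e3]
  simp only [Finset.sum_const, nsmul_eq_mul]
  have hK1 : (n : ℝ) * (∑ i ∈ Big, ((JJ D idx i).card : ℝ)) / K ≤ (n : ℝ) * n / K := by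
    apply div_le_div_of_nonneg_right _ (le_of_lt hKR)
    exact mul_le_mul_of_nonneg_left hJsum (le_of_lt hnR)
  have hK2 : (K : ℝ) * (∑ i ∈ Big, ((JJ D idx i).card : ℝ)) * b ≤ K * n * b := by
    apply mul_le_mul_of_nonneg_right _ (by positivity)
    exact mul_le_mul_of_nonneg_left hJsum (le_of_lt hKR)
  have hK3 : (K : ℝ) * h * ∑ i ∈ Big, (((badPairs A b).filter
      (fun q => q.1 ∈ JJ D idx i ∧ q.2 ∈ JJ D idx i)).card : ℝ) ≤
      K * h * (((badPairs A b).filter (fun q => q.1 ∉ D ∧ q.2 ∉ D ∧ idx q.1 = idx q.2)).card : ℝ) :=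
    mul_le_mul_of_nonneg_left hBsum (by positivity)
  linarith

end Vale.Agent.Lib.P037
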