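import Vale.Agent.Lib.P037.Basic

open Finset

namespace Vale.Agent.Lib.P037

variable {n : ℕ}

/-- row pairs with few copies -/
def goodRP (A : Fin n → Fin n → Bool) (s : ℕ) : Finset (Fin n × Fin n) :=
  univ.filter (fun p => copyR A p.1 p.2 < (s + 1) * (s + 1))

/-- number of row pairs with many copies -/
def heavy (A : Fin n → Fin n → Bool) (s : ℕ) : ℕ :=
  (univ.filter (fun p : Fin n × Fin n => ¬ copyR A p.1 p.2 < (s + 1) * (s + 1))).card

theorem heavy_mul_le (A : Fin n → Fin n → Bool) (s : ℕ) :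
    heavy A s * ((s + 1) * (s + 1)) ≤ NN A := by
  unfold heavy NN
  calc _ = ∑ _p ∈ univ.filter (fun p : Fin n × Fin n => ¬ copyR A p.1 p.2 < (s + 1) * (s + 1)),
        ((s + 1) * (s + 1)) := by simp
    _ ≤ ∑ p ∈ univ.filter (fun p : Fin n × Fin n => ¬ copyR A p.1 p.2 < (s + 1) * (s + 1)),
        copyR A p.1 p.2 := by
        apply Finset.sum_le_sum
        intro p hp
        simp only [mem_filter, mem_univ, true_and] at hp
        omega
    _ ≤ _ := Finset.sum_le_sum_of_subset (Finset.subset_univ _)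

/-- column pairs (left to right) on which both one-sided differences exceed `b`. -/
def badPairs (A : Fin n → Fin n → Bool) (b : ℕ) : Finset (Fin n × Fin n) :=
  univ.filter (fun q => q.1 < q.2 ∧ b < pp A q.1 q.2 ∧ b < pp A q.2 q.1)

/-- the number of pairs of `U` that row pair `p` separates -/
def resCount (A : Fin n → Fin n → Bool) (U : Finset (Fin n × Fin n)) (p : Fin n × Fin n) : ℕ :=
  (U.filter (fun q => Res A p.1 p.2 q.1 q.2)).card

theorem pp_mul_le (A : Fin n → Fin n → Bool) (q : Fin n × Fin n) (hq : q.1 < q.2) :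
    pp A q.2 q.1 * pp A q.1 q.2 ≤
      ((univ : Finset (Fin n × Fin n)).filter (fun p => Res A p.1 p.2 q.1 q.2)).card +
        copyC A q.1 q.2 := by
  unfold pp copyC
  rw [← Finset.card_product]
  have hsub : (Pa A q.2 q.1 ×ˢ Pa A q.1 q.2) ⊆
      ((univ : Finset (Fin n × Fin n)).filter (fun p => Res A p.1 p.2 q.1 q.2)) ∪
        (((univ : Finset (Fin n × Fin n)).filter (fun r => Pat A r.1 r.2 q.1 q.2)).image
          (fun p => (p.2, p.1))) := by
    intro p hp
    simp only [Pa, mem_product, mem_filter, mem_univ, true_and] at hp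
    obtain ⟨⟨h1, h2⟩, h3, h4⟩ := hp
    simp only [mem_union, mem_filter, mem_univ, true_and, mem_image]
    rcases lt_trichotomy p.1 p.2 with h | h | h
    · left
      exact ⟨h, hq, h2, h1, h3, h4⟩
    · exfalso
      rw [h] at h1
      rw [h1] at h4
      exact Bool.noConfusion h4
    · right
      refine ⟨(p.2, p.1), ?_, rfl⟩
      exact ⟨h, hq, h3, h4, h2, h1⟩
  refine (Finset.card_le_card hsub).trans ((Finset.card_union_le _ _).trans ?_)
  exact Nat.add_le_add_left Finset.card_image_le _

theorem greedy_step (hn : 0 < n) (A : Fin n → Fin n → Bool) (s b : ℕ)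
    (U : Finset (Fin n × Fin n)) (hU : U ⊆ badPairs A b) :
    ∃ p ∈ goodRP A s, (b + 1) * (b + 1) * U.card ≤
      n * n * resCount A U p + U.card * heavy A s + NN A := by
  classical
  have hne : (goodRP A s).Nonempty := by
    refine ⟨(⟨0, hn⟩, ⟨0, hn⟩), ?_⟩
    simp only [goodRP, mem_filter, mem_univ, true_and]
    have : copyR A (⟨0, hn⟩ : Fin n) ⟨0, hn⟩ = 0 := by
      unfold copyR
      apply Finset.card_eq_zero.mpr
      apply Finset.filter_eq_empty_iff.mpr
      intro c _ h
      exact lt_irrefl _ h.1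
    show copyR A (⟨0, hn⟩ : Fin n) ⟨0, hn⟩ < (s + 1) * (s + 1)
    rw [this]
    positivity
  obtain ⟨p, hp, hmax⟩ := Finset.exists_max_image (goodRP A s) (resCount A U) hne
  refine ⟨p, hp, ?_⟩
  -- double counting
  have hdc : ∑ p' ∈ goodRP A s, resCount A U p' =
      ∑ q ∈ U, ((goodRP A s).filter (fun p' => Res A p'.1 p'.2 q.1 q.2)).card := by
    unfold resCount
    exact Finset.sum_card_bipartiteAbove_eq_sum_card_bipartiteBelow
      (s := goodRP A s) (t := U) (fun p' q => Res A p'.1 p'.2 q.1 q.2)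
  have hle1 : ∑ p' ∈ goodRP A s, resCount A U p' ≤ n * n * resCount A U p := by
    calc _ ≤ ∑ _p' ∈ goodRP A s, resCount A U p := Finset.sum_le_sum hmax
      _ = (goodRP A s).card * resCount A U p := by simp
      _ ≤ _ := by
        apply Nat.mul_le_mul_right
        calc (goodRP A s).card ≤ (univ : Finset (Fin n × Fin n)).card :=
              Finset.card_le_card (Finset.subset_univ _)
          _ = n * n := by simp [Finset.card_univ]
  have hq : ∀ q ∈ U, (b + 1) * (b + 1) ≤
      ((goodRP A s).filter (fun p' => Res A p'.1 p'.2 q.1 q.2)).card + heavy A s +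
        copyC A q.1 q.2 := by
    intro q hqU
    have hq' := hU hqU
    simp only [badPairs, mem_filter, mem_univ, true_and] at hq'
    obtain ⟨h1, h2, h3⟩ := hq'
    have h4 := pp_mul_le A q h1
    have h5 : (b + 1) * (b + 1) ≤ pp A q.2 q.1 * pp A q.1 q.2 :=
      Nat.mul_le_mul (by omega) (by omega)
    have h6 : ((univ : Finset (Fin n × Fin n)).filter (fun p => Res A p.1 p.2 q.1 q.2)).card ≤
        ((goodRP A s).filter (fun p' => Res A p'.1 p'.2 q.1 q.2)).card + heavy A s := by
      unfold heavy goodRP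
      refine le_trans (Finset.card_le_card ?_) (Finset.card_union_le _ _)
      intro p' hp'
      simp only [mem_filter, mem_univ, true_and, mem_union] at hp' ⊢
      by_cases h : copyR A p'.1 p'.2 < (s + 1) * (s + 1)
      · left; exact ⟨h, hp'⟩
      · right; exact h
    omega
  have hsum : ∑ q ∈ U, copyC A q.1 q.2 ≤ NN A := by
    rw [NN_eq_sum_copyC]
    exact Finset.sum_le_sum_of_subset (Finset.subset_univ _)
  have hmain : (b + 1) * (b + 1) * U.card ≤
      ∑ q ∈ U, (((goodRP A s).filter (fun p' => Res A p'.1 p'.2 q.1 q.2)).card + heavy A s +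
        copyC A q.1 q.2) := by
    calc _ = ∑ _q ∈ U, (b + 1) * (b + 1) := by simp [mul_comm]
      _ ≤ _ := Finset.sum_le_sum hq
  rw [Finset.sum_add_distrib, Finset.sum_add_distrib, ← hdc] at hmain
  have h7 : ∑ _q ∈ U, heavy A s = U.card * heavy A s := by simp
  rw [h7] at hmain
  omega

/-- Iterating the greedy step. -/
theorem greedy_iter (hn : 0 < n) (A : Fin n → Fin n → Bool) (s b : ℕ) (μ : ℝ) (hμ0 : 0 < μ)
    (hμ1 : μ ≤ 1) (hheavy : μ * ((n : ℝ) * n) + heavy A s ≤ ((b : ℝ) + 1) * ((b : ℝ) + 1)) (t : ℕ) :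
    ∃ S ⊆ goodRP A s, S.card ≤ t ∧
      (((badPairs A b).filter (fun q => ∀ p ∈ S, ¬ Res A p.1 p.2 q.1 q.2)).card : ℝ) ≤
        (1 - μ) ^ t * ((n : ℝ) * n) + ((NN A : ℝ) / ((n : ℝ) * n)) / μ := by
  classical
  have hnR : (0 : ℝ) < (n : ℝ) * n := by positivity
  set ν : ℝ := (NN A : ℝ) / ((n : ℝ) * n) with hν
  have hν0 : 0 ≤ ν := by positivity
  induction t with
  | zero =>
    refine ⟨∅, Finset.empty_subset _, by simp, ?_⟩
    have h1 : ((badPairs A b).filter (fun q => ∀ p ∈ (∅ : Finset (Fin n × Fin n)),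
        ¬ Res A p.1 p.2 q.1 q.2)).card ≤ n * n := by
      calc _ ≤ (univ : Finset (Fin n × Fin n)).card :=
            Finset.card_le_card (Finset.subset_univ _)
        _ = n * n := by simp [Finset.card_univ]
    have h2 : (((badPairs A b).filter (fun q => ∀ p ∈ (∅ : Finset (Fin n × Fin n)),
        ¬ Res A p.1 p.2 q.1 q.2)).card : ℝ) ≤ (n : ℝ) * n := by exact_mod_cast h1
    have h3 : 0 ≤ ν / μ := by positivity
    simp only [pow_zero, one_mul]
    linarith
  | succ t ih =>
    obtain ⟨S, hS, hcard, hbound⟩ := ih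
    set U := (badPairs A b).filter (fun q => ∀ p ∈ S, ¬ Res A p.1 p.2 q.1 q.2) with hU
    obtain ⟨p, hp, hstep⟩ := greedy_step hn A s b U (Finset.filter_subset _ _)
    refine ⟨insert p S, ?_, ?_, ?_⟩
    · intro x hx
      rcases Finset.mem_insert.mp hx with h | h
      · exact h ▸ hp
      · exact hS h
    · calc _ ≤ S.card + 1 := Finset.card_insert_le _ _
        _ ≤ t + 1 := by omega
    · have hfil : (badPairs A b).filter (fun q => ∀ p' ∈ insert p S, ¬ Res A p'.1 p'.2 q.1 q.2) =
          U.filter (fun q => ¬ Res A p.1 p.2 q.1 q.2) := by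
        ext q
        simp only [hU, mem_filter, Finset.forall_mem_insert]
        tauto
      rw [hfil]
      have hsplit := Finset.card_filter_add_card_filter_not (s := U)
        (fun q => Res A p.1 p.2 q.1 q.2)
      have hsplitR : (resCount A U p : ℝ) +
          ((U.filter (fun q => ¬ Res A p.1 p.2 q.1 q.2)).card : ℝ) = (U.card : ℝ) := by
        unfold resCount
        exact_mod_cast hsplit
      have hstepR : ((b : ℝ) + 1) * ((b : ℝ) + 1) * (U.card : ℝ) ≤
          (n : ℝ) * n * (resCount A U p : ℝ) + (U.card : ℝ) * (heavy A s : ℝ) + (NN A : ℝ) := by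
        exact_mod_cast hstep
      have hUnn : (0 : ℝ) ≤ (U.card : ℝ) := by positivity
      have h1 : (μ * ((n : ℝ) * n) + heavy A s) * (U.card : ℝ) ≤
          ((b : ℝ) + 1) * ((b : ℝ) + 1) * (U.card : ℝ) :=
        mul_le_mul_of_nonneg_right hheavy hUnn
      have h2 : μ * (U.card : ℝ) * ((n : ℝ) * n) ≤
          ((resCount A U p : ℝ) + ν) * ((n : ℝ) * n) := by
        have : ν * ((n : ℝ) * n) = (NN A : ℝ) := by
          rw [hν]; field_simp
        nlinarith
      have h3 : μ * (U.card : ℝ) ≤ (resCount A U p : ℝ) + ν :=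
        le_of_mul_le_mul_right h2 hnR
      have h4 : (1 - μ) * (U.card : ℝ) ≤ (1 - μ) * ((1 - μ) ^ t * ((n : ℝ) * n) + ν / μ) :=
        mul_le_mul_of_nonneg_left hbound (by linarith)
      have h5 : (1 - μ) * ((1 - μ) ^ t * ((n : ℝ) * n) + ν / μ) + ν =
          (1 - μ) ^ (t + 1) * ((n : ℝ) * n) + ν / μ := by
        field_simp
        ring
      nlinarith

/-- The structure of the columns: after deleting few columns the rest splits into consecutive
intervals inside which few pairs of columns are far from nested. -/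
theorem col_structure (hn : 0 < n) (A : Fin n → Fin n → Bool) (s b : ℕ) (μ : ℝ) (hμ0 : 0 < μ)
    (hμ1 : μ ≤ 1) (hheavy : μ * ((n : ℝ) * n) + heavy A s ≤ ((b : ℝ) + 1) * ((b : ℝ) + 1)) (t : ℕ) :
    ∃ (D : Finset (Fin n)) (idx : Fin n → ℕ), D.card ≤ t * (2 * s) ∧ Monotone idx ∧
      (∀ c, idx c ≤ t) ∧
      (((badPairs A b).filter (fun q => q.1 ∉ D ∧ q.2 ∉ D ∧ idx q.1 = idx q.2)).card : ℝ) ≤
        (1 - μ) ^ t * ((n : ℝ) * n) + ((NN A : ℝ) / ((n : ℝ) * n)) / μ := by
  classical
  obtain ⟨S, hS, hcard, hbound⟩ := greedy_iter hn A s b μ hμ0 hμ1 hheavy t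
  set X : Fin n × Fin n → Finset (Fin n) :=
    fun p => univ.filter (fun c => A p.1 c = true ∧ A p.2 c = false) with hX
  set Y : Fin n × Fin n → Finset (Fin n) :=
    fun p => univ.filter (fun c => A p.1 c = false ∧ A p.2 c = true) with hY
  have hthr : ∀ p : Fin n × Fin n, ∃ κ : ℕ, p.1 < p.2 → copyR A p.1 p.2 < (s + 1) * (s + 1) →
      ((X p).filter (fun x => x.val < κ)).card ≤ s ∧
      ((Y p).filter (fun y => κ ≤ y.val)).card ≤ s := by
    intro p
    by_cases h1 : p.1 < p.2
    · by_cases h2 : copyR A p.1 p.2 < (s + 1) * (s + 1)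
      · have hd : Disjoint (X p) (Y p) := by
          rw [Finset.disjoint_left]
          intro c hc hc'
          simp only [hX, hY, mem_filter, mem_univ, true_and] at hc hc'
          rw [hc.1] at hc'
          exact Bool.noConfusion hc'.1
        have hle : (((X p) ×ˢ (Y p)).filter (fun q => q.1 < q.2)).card ≤ copyR A p.1 p.2 := by
          unfold copyR
          apply Finset.card_le_card
          intro q hq
          simp only [hX, hY, mem_filter, mem_product, mem_univ, true_and] at hq ⊢
          exact ⟨h1, hq.2, hq.1.1.1, hq.1.2.1, hq.1.1.2, hq.1.2.2⟩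
        obtain ⟨κ, h⟩ := threshold_exists (X p) (Y p) hd s (lt_of_le_of_lt hle h2)
        exact ⟨κ, fun _ _ => h⟩
      · exact ⟨0, fun _ h => absurd h h2⟩
    · exact ⟨0, fun h => absurd h h1⟩
  choose κ hκ using hthr
  set delP : Fin n × Fin n → Finset (Fin n) := fun p =>
    if p.1 < p.2 then ((X p).filter (fun x => x.val < κ p)) ∪ ((Y p).filter (fun y => κ p ≤ y.val))
    else ∅ with hdelP
  refine ⟨S.biUnion delP, fun c => (S.filter (fun p => κ p ≤ c.val)).card, ?_, ?_, ?_, ?_⟩
  · refine (Finset.card_biUnion_le_card_mul S delP (2 * s) ?_).trans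
      (Nat.mul_le_mul_right _ hcard)
    intro p hp
    simp only [hdelP]
    split_ifs with h
    · have hg := hS hp
      simp only [goodRP, mem_filter, mem_univ, true_and] at hg
      obtain ⟨h1, h2⟩ := hκ p h hg
      refine (Finset.card_union_le _ _).trans ?_
      omega
    · simp
  · intro c c' hcc
    apply Finset.card_le_card
    intro p hp
    simp only [mem_filter] at hp ⊢
    refine ⟨hp.1, le_trans hp.2 ?_⟩
    exact hcc
  · intro c
    exact (Finset.card_filter_le _ _).trans hcard
  · refine le_trans ?_ hbound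
    have hsub : (badPairs A b).filter (fun q => q.1 ∉ S.biUnion delP ∧ q.2 ∉ S.biUnion delP ∧
        (S.filter (fun p => κ p ≤ q.1.val)).card = (S.filter (fun p => κ p ≤ q.2.val)).card) ⊆
        (badPairs A b).filter (fun q => ∀ p ∈ S, ¬ Res A p.1 p.2 q.1 q.2) := by
      intro q hq
      simp only [mem_filter] at hq ⊢
      refine ⟨hq.1, ?_⟩
      intro p hp hres
      obtain ⟨hb, h1, h2, h3⟩ := hq
      obtain ⟨hp12, hq12, e1, e2, e3, e4⟩ := hres
      have h1' : q.1 ∉ delP p := fun h => h1 (Finset.mem_biUnion.mpr ⟨p, hp, h⟩)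
      have h2' : q.2 ∉ delP p := fun h => h2 (Finset.mem_biUnion.mpr ⟨p, hp, h⟩)
      simp only [hdelP, if_pos hp12, mem_union, mem_filter, hX, hY, mem_univ, true_and,
        not_or, not_and, not_lt, not_le] at h1' h2'
      have hlt1 : q.1.val < κ p := h1'.2 ⟨e1, e3⟩
      have hle2 : κ p ≤ q.2.val := h2'.1 ⟨e2, e4⟩
      have hss : S.filter (fun p => κ p ≤ q.1.val) ⊂ S.filter (fun p => κ p ≤ q.2.val) := by
        rw [Finset.ssubset_iff_of_subset]
        · refine ⟨p, ?_, ?_⟩
          · simp only [mem_filter]; exact ⟨hp, hle2⟩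
          · simp only [mem_filter, not_and, not_le]; exact fun _ => hlt1
        · intro p' hp'
          simp only [mem_filter] at hp' ⊢
          refine ⟨hp'.1, le_trans hp'.2 ?_⟩
          exact le_of_lt hq12
      have := Finset.card_lt_card hss
      omega
    exact_mod_cast Finset.card_le_card hsub

end Vale.Agent.Lib.P037
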