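import Vale.Agent.Lib.P037.Core

open Finset

namespace Vale.Agent.Lib.P037

variable {n : ℕ}

theorem pow_decay (μ : ℝ) (h0 : 0 ≤ μ) (h1 : μ ≤ 1) (t : ℕ) :
    (1 - μ) ^ t * ((t : ℝ) * μ) ≤ 1 := by
  have hb : 1 + (t : ℝ) * μ ≤ (1 + μ) ^ t := one_add_mul_le_pow (by linarith) t
  have hnn : 0 ≤ (1 - μ) ^ t := pow_nonneg (by linarith) t
  have h2 : (1 - μ) ^ t * (1 + μ) ^ t ≤ 1 := by
    rw [← mul_pow]
    apply pow_le_one₀
    · nlinarith
    · nlinarith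
  have h3 : (1 - μ) ^ t * (1 + (t : ℝ) * μ) ≤ (1 - μ) ^ t * (1 + μ) ^ t :=
    mul_le_mul_of_nonneg_left hb hnn
  nlinarith

theorem L_heavy {k x s b hv N : ℝ} (hk : 14 ≤ k) (hx : 0 < x) (hs : x / k ^ 14 < s + 1)
    (hb : x / k ^ 2 < b + 1) (hv0 : 0 ≤ hv) (h1 : hv * ((s + 1) * (s + 1)) ≤ N)
    (hN : N < x ^ 4 / k ^ 234) :
    1 / (2 * k ^ 4) * (x * x) + hv ≤ (b + 1) * (b + 1) := by
  have hk0 : 0 < k := by linarith
  have h2 : (x / k ^ 14) * (x / k ^ 14) ≤ (s + 1) * (s + 1) :=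
    mul_self_le_mul_self (by positivity) hs.le
  have h3 : hv * ((x / k ^ 14) * (x / k ^ 14)) < x ^ 4 / k ^ 234 := by
    calc _ ≤ hv * ((s + 1) * (s + 1)) := mul_le_mul_of_nonneg_left h2 hv0
      _ ≤ N := h1
      _ < _ := hN
  have h4 : hv ≤ (x * x) / (2 * k ^ 4) := by
    by_contra hcon
    push Not at hcon
    have h5 : (x * x) / (2 * k ^ 4) * ((x / k ^ 14) * (x / k ^ 14)) ≤
        hv * ((x / k ^ 14) * (x / k ^ 14)) :=
      mul_le_mul_of_nonneg_right hcon.le (by positivity)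
    have h6 : x ^ 4 / k ^ 234 ≤ (x * x) / (2 * k ^ 4) * ((x / k ^ 14) * (x / k ^ 14)) := by
      have e : (x * x) / (2 * k ^ 4) * ((x / k ^ 14) * (x / k ^ 14)) =
          x ^ 4 / (2 * k ^ 32) := by
        field_simp
      rw [e]
      apply div_le_div_of_nonneg_left (by positivity) (by positivity)
      have h8 : k ^ 234 = k ^ 32 * k ^ 202 := by ring
      rw [h8]
      have h9 : (2 : ℝ) ≤ k ^ 202 := by
        calc (2 : ℝ) ≤ k := by linarith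
          _ = k ^ 1 := by ring
          _ ≤ k ^ 202 := pow_le_pow_right₀ (by linarith) (by norm_num)
      have h10 : 0 < k ^ 32 := by positivity
      nlinarith
    linarith
  have h5 : (x / k ^ 2) * (x / k ^ 2) ≤ (b + 1) * (b + 1) :=
    mul_self_le_mul_self (by positivity) hb.le
  have h6 : (x / k ^ 2) * (x / k ^ 2) = x * x / k ^ 4 := by
    field_simp
  have h7 : 1 / (2 * k ^ 4) * (x * x) = (x * x) / (2 * k ^ 4) := by
    field_simp
  have h8 : (x * x) / (2 * k ^ 4) + (x * x) / (2 * k ^ 4) = x * x / k ^ 4 := by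
    field_simp
    ring
  linarith

theorem L_count {k x s' g N : ℝ} (hk : 14 ≤ k) (hx : 0 < x) (hs : x / k ^ 88 < s' + 1)
    (hg : x / k ^ 28 < g + 1) (hg1 : 1 ≤ g) (hN : N < x ^ 4 / k ^ 234) :
    N < (s' + 1) * (s' + 1) * (g * g) := by
  have hk0 : 0 < k := by linarith
  have h2 : (x / k ^ 88) * (x / k ^ 88) ≤ (s' + 1) * (s' + 1) :=
    mul_self_le_mul_self (by positivity) hs.le
  have h3 : (x / k ^ 28 / 2) * (x / k ^ 28 / 2) ≤ g * g := by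
    apply mul_self_le_mul_self (by positivity)
    linarith
  have h4 : (x / k ^ 88) * (x / k ^ 88) * ((x / k ^ 28 / 2) * (x / k ^ 28 / 2)) ≤
      (s' + 1) * (s' + 1) * (g * g) :=
    mul_le_mul h2 h3 (by positivity) (mul_self_nonneg _)
  have h5 : x ^ 4 / k ^ 234 ≤
      (x / k ^ 88) * (x / k ^ 88) * ((x / k ^ 28 / 2) * (x / k ^ 28 / 2)) := by
    have e : (x / k ^ 88) * (x / k ^ 88) * ((x / k ^ 28 / 2) * (x / k ^ 28 / 2)) =
        x ^ 4 / (4 * k ^ 232) := by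
      field_simp
      ring
    rw [e]
    apply div_le_div_of_nonneg_left (by positivity) (by positivity)
    have h8 : k ^ 234 = k ^ 232 * (k * k) := by ring
    rw [h8]
    have h9 : (4 : ℝ) ≤ k * k := by nlinarith
    have h10 : 0 < k ^ 232 := by positivity
    nlinarith
  linarith

theorem L_decay (K : ℕ) {k : ℝ} (hkdef : k = (K : ℝ)) (hk : 14 ≤ k) :
    (1 - 1 / (2 * k ^ 4)) ^ (2 * K ^ 12) ≤ 4 / k ^ 16 := by
  have hk0 : 0 < k := by linarith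
  set μ : ℝ := 1 / (2 * k ^ 4) with hμ
  have hμ0 : 0 < μ := by positivity
  have hμ1 : μ ≤ 1 := by
    rw [hμ, div_le_one (by positivity)]
    have : (1 : ℝ) ≤ k ^ 4 := one_le_pow₀ (by linarith)
    linarith
  have h1 := pow_decay μ hμ0.le hμ1 (K ^ 12)
  have h2 : ((K ^ 12 : ℕ) : ℝ) * μ = k ^ 8 / 2 := by
    rw [hμ, hkdef]
    have hK0 : (K : ℝ) ≠ 0 := by
      rw [← hkdef]; exact hk0.ne'
    push_cast
    field_simp
  rw [h2] at h1
  have h3 : (1 - μ) ^ (K ^ 12) ≤ 2 / k ^ 8 := by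
    rw [le_div_iff₀ (by positivity)]
    linarith
  have h4 : (0 : ℝ) ≤ (1 - μ) ^ (K ^ 12) := pow_nonneg (by linarith) _
  have h5 : (1 - μ) ^ (2 * K ^ 12) = (1 - μ) ^ (K ^ 12) * (1 - μ) ^ (K ^ 12) := by
    rw [two_mul, pow_add]
  rw [h5]
  calc _ ≤ (2 / k ^ 8) * (2 / k ^ 8) := mul_le_mul h3 h3 h4 (by positivity)
    _ = 4 / k ^ 16 := by
      field_simp
      ring

section final

variable {k x s b g s' N m P : ℝ}

theorem A1 (hk : 14 ≤ k) (hx : 0 < x) (hm : m ≤ k ^ 13) : m * x / k ^ 14 * x ≤ x * x / k := by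
  have hk0 : 0 < k := by linarith
  have h1 : m * x / k ^ 14 * x ≤ k ^ 13 * x / k ^ 14 * x := by
    gcongr
  have h2 : k ^ 13 * x / k ^ 14 * x = x * x / k := by
    field_simp
  linarith

theorem A2 (hk : 14 ≤ k) (hx : 0 < x) (hm0 : 0 < m) (hm : m ≤ k ^ 13) (hs'0 : 0 ≤ s')
    (hs' : s' ≤ x / k ^ 88) :
    (m * m * k ^ 15 * k ^ 15 * k ^ 15 * k ^ 15 * (2 * s')) * x ≤ x * x / k := by
  have hk0 : 0 < k := by linarith
  have hmk : m * m * (k ^ 15 * k ^ 15 * k ^ 15 * k ^ 15) ≤ k ^ 86 := by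
    have e : k ^ 86 = k ^ 13 * k ^ 13 * (k ^ 15 * k ^ 15 * k ^ 15 * k ^ 15) := by ring
    rw [e]
    apply mul_le_mul_of_nonneg_right _ (by positivity)
    exact mul_le_mul hm hm hm0.le (by positivity)
  have h1 : m * m * k ^ 15 * k ^ 15 * k ^ 15 * k ^ 15 * (2 * s') ≤
      k ^ 86 * (2 * (x / k ^ 88)) := by
    have e : m * m * k ^ 15 * k ^ 15 * k ^ 15 * k ^ 15 =
        m * m * (k ^ 15 * k ^ 15 * k ^ 15 * k ^ 15) := by ring
    rw [e]
    apply mul_le_mul hmk (by linarith) (by positivity) (by positivity)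
  have h2 : k ^ 86 * (2 * (x / k ^ 88)) = 2 * x / (k * k) := by
    field_simp
  have h3 : 2 * x / (k * k) * x ≤ x * x / k := by
    rw [div_mul_eq_mul_div, div_le_div_iff₀ (by positivity) hk0]
    have : 0 < x * x * k := by positivity
    nlinarith
  calc _ ≤ (k ^ 86 * (2 * (x / k ^ 88))) * x := mul_le_mul_of_nonneg_right h1 hx.le
    _ = 2 * x / (k * k) * x := by rw [h2]
    _ ≤ _ := h3

theorem A3 (hk : 14 ≤ k) (hx : 0 < x) (hs : s ≤ x / k ^ 14) :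
    x * (2 * k ^ 12 * (2 * s)) ≤ x * x / k := by
  have hk0 : 0 < k := by linarith
  have h1 : 2 * k ^ 12 * (2 * s) ≤ 2 * k ^ 12 * (2 * (x / k ^ 14)) := by
    gcongr
  have h2 : 2 * k ^ 12 * (2 * (x / k ^ 14)) = 4 * x / (k * k) := by
    field_simp
    ring
  have h3 : x * (4 * x / (k * k)) ≤ x * x / k := by
    rw [mul_div_assoc', div_le_div_iff₀ (by positivity) hk0]
    have : 0 < x * x * k := by positivity
    nlinarith
  calc _ ≤ x * (2 * k ^ 12 * (2 * (x / k ^ 14))) := mul_le_mul_of_nonneg_left h1 hx.le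
    _ = x * (4 * x / (k * k)) := by rw [h2]
    _ ≤ _ := h3

theorem A6 (hk : 14 ≤ k) (hx : 0 < x) (hb : b ≤ x / k ^ 2) : k * x * b ≤ x * x / k := by
  have hk0 : 0 < k := by linarith
  have h1 : k * x * b ≤ k * x * (x / k ^ 2) := by gcongr
  have h2 : k * x * (x / k ^ 2) = x * x / k := by field_simp
  linarith

theorem A7 (hk : 14 ≤ k) (hx : 0 < x) (hP : P ≤ 4 / k ^ 16) (hN : N < x ^ 4 / k ^ 234) :
    k * k ^ 14 * (P * (x * x) + (N / (x * x)) / (1 / (2 * k ^ 4))) ≤ 5 * (x * x / k) := by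
  have hk0 : 0 < k := by linarith
  have hx2 : 0 < x * x := by positivity
  have h1 : P * (x * x) ≤ 4 / k ^ 16 * (x * x) := mul_le_mul_of_nonneg_right hP hx2.le
  have h2 : (N / (x * x)) / (1 / (2 * k ^ 4)) ≤ (x ^ 4 / k ^ 234 / (x * x)) / (1 / (2 * k ^ 4)) := by
    gcongr
  have h3 : (x ^ 4 / k ^ 234 / (x * x)) / (1 / (2 * k ^ 4)) = 2 * (x * x) / k ^ 230 := by
    field_simp
  have h4 : k * k ^ 14 * (4 / k ^ 16 * (x * x) + 2 * (x * x) / k ^ 230) ≤ 5 * (x * x / k) := by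
    have e1 : k * k ^ 14 * (4 / k ^ 16 * (x * x)) = 4 * (x * x / k) := by
      field_simp
    have e2 : k * k ^ 14 * (2 * (x * x) / k ^ 230) = (x * x) / k * (2 / k ^ 214) := by
      field_simp
    rw [mul_add, e1, e2]
    have h5 : 2 / k ^ 214 ≤ 1 := by
      rw [div_le_one (by positivity)]
      calc (2 : ℝ) ≤ k := by linarith
        _ = k ^ 1 := by ring
        _ ≤ k ^ 214 := pow_le_pow_right₀ (by linarith) (by norm_num)
    have h6 : (x * x) / k * (2 / k ^ 214) ≤ (x * x) / k * 1 :=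
      mul_le_mul_of_nonneg_left h5 (by positivity)
    linarith
  calc _ ≤ k * k ^ 14 * (4 / k ^ 16 * (x * x) + 2 * (x * x) / k ^ 230) := by
        apply mul_le_mul_of_nonneg_left _ (by positivity)
        linarith
    _ ≤ _ := h4

theorem A9 (hk : 14 ≤ k) (hx : 0 < x) (hm : m ≤ k ^ 13) (hg0 : 0 ≤ g)
    (hg : g ≤ x / k ^ 28) : m * (x * (g * k ^ 14)) ≤ x * x / k := by
  have hk0 : 0 < k := by linarith
  have h1 : m * (x * (g * k ^ 14)) ≤ k ^ 13 * (x * ((x / k ^ 28) * k ^ 14)) := by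
    gcongr
  have h2 : k ^ 13 * (x * ((x / k ^ 28) * k ^ 14)) = x * x / k := by
    field_simp
  linarith

theorem L_final (K : ℕ) (hkdef : k = (K : ℝ)) (hk : 14 ≤ k) (hx : 0 < x)
    (hs : s ≤ x / k ^ 14) (hb : b ≤ x / k ^ 2) (hg0 : 0 ≤ g) (hg : g ≤ x / k ^ 28) (hs'0 : 0 ≤ s')
    (hs' : s' ≤ x / k ^ 88) (hN : N < x ^ 4 / k ^ 234) :
    ((2 * k ^ 12 + 1) * x / k ^ 14 + (2 * k ^ 12 + 1) * (2 * k ^ 12 + 1) * k ^ 15 * k ^ 15 * k ^ 15 *
        k ^ 15 * (2 * s')) * x + x * (2 * k ^ 12 * (2 * s)) + x * ((2 * k ^ 12 + 1) * x / k ^ 14) +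
      (x * x / k + k * x * b + k * k ^ 14 * ((1 - 1 / (2 * k ^ 4)) ^ (2 * K ^ 12) * (x * x) +
        (N / (x * x)) / (1 / (2 * k ^ 4))) + (2 * k ^ 12 + 1) * (x * (g * k ^ 14))) ≤
      12 * (x * x) / k := by
  have hk0 : 0 < k := by linarith
  have hk1 : (1 : ℝ) ≤ k ^ 12 := one_le_pow₀ (by linarith)
  have hm13 : 2 * k ^ 12 + 1 ≤ k ^ 13 := by
    have : k ^ 13 = k * k ^ 12 := by ring
    rw [this]
    nlinarith
  have hm0 : 0 < 2 * k ^ 12 + 1 := by positivity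
  have a1 := A1 hk hx hm13
  have a2 := A2 hk hx hm0 hm13 hs'0 hs'
  have a3 := A3 hk hx hs
  have a4 : x * ((2 * k ^ 12 + 1) * x / k ^ 14) ≤ x * x / k := by
    have e : x * ((2 * k ^ 12 + 1) * x / k ^ 14) = (2 * k ^ 12 + 1) * x / k ^ 14 * x := by ring
    rw [e]
    exact a1
  have a6 := A6 hk hx hb
  have a7 := A7 hk hx (L_decay K hkdef hk) hN
  have a9 := A9 hk hx hm13 hg0 hg
  have e : 12 * (x * x) / k = 12 * (x * x / k) := by ring
  rw [e, add_mul]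
  linarith

end final

theorem main_core (hn : 0 < n) (A : Fin n → Fin n → Bool) (K : ℕ) (hK : 14 ≤ K)
    (hN : (NN A : ℝ) * (K : ℝ) ^ 234 < (n : ℝ) ^ 4) (hN1 : 1 ≤ NN A) :
    ∃ B : Fin n → Fin n → Bool, (∀ r1 r2 c1 c2, ¬ Pat B r1 r2 c1 c2) ∧
      (ham A B : ℝ) ≤ 12 * ((n : ℝ) * n) / K := by
  have hk14 : (14 : ℝ) ≤ (K : ℝ) := by exact_mod_cast hK
  have hk0 : (0 : ℝ) < (K : ℝ) := by linarith
  have hx0 : (0 : ℝ) < (n : ℝ) := by exact_mod_cast hn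
  have hK0 : 0 < K := by omega
  -- size of n
  have hNR : (1 : ℝ) ≤ (NN A : ℝ) := by exact_mod_cast hN1
  have hk234 : (K : ℝ) ^ 234 < (n : ℝ) ^ 4 := by
    have : (K : ℝ) ^ 234 ≤ (NN A : ℝ) * (K : ℝ) ^ 234 := by
      have h0 : 0 < (K : ℝ) ^ 234 := by positivity
      nlinarith
    linarith
  have hnlarge : K ^ 28 ≤ n := by
    by_contra hcon
    push Not at hcon
    have h1 : (n : ℝ) < (K : ℝ) ^ 28 := by
      exact_mod_cast hcon
    have h2 : (n : ℝ) ^ 4 < ((K : ℝ) ^ 28) ^ 4 := by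
      apply pow_lt_pow_left₀ h1 hx0.le (by norm_num)
    have h3 : ((K : ℝ) ^ 28) ^ 4 = (K : ℝ) ^ 112 := by ring
    have h4 : (K : ℝ) ^ 112 ≤ (K : ℝ) ^ 234 := pow_le_pow_right₀ (by linarith) (by norm_num)
    linarith
  -- parameters
  have hp : ∀ e : ℕ, 0 < K ^ e := fun e => Nat.pow_pos hK0
  have hpR : ∀ e : ℕ, (0 : ℝ) < (K : ℝ) ^ e := fun e => pow_pos hk0 e
  have hfloor : ∀ e : ℕ, (((n / K ^ e : ℕ) : ℝ) ≤ (n : ℝ) / (K : ℝ) ^ e) ∧
      ((n : ℝ) / (K : ℝ) ^ e < ((n / K ^ e : ℕ) : ℝ) + 1) := by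
    intro e
    have h1 : (n / K ^ e) * K ^ e ≤ n := Nat.div_mul_le_self _ _
    have h2 : n < (n / K ^ e + 1) * K ^ e := by
      have := Nat.lt_succ_iff.mpr (le_refl (n / K ^ e))
      exact (Nat.div_lt_iff_lt_mul (hp e)).mp this
    constructor
    · rw [le_div_iff₀ (hpR e)]
      exact_mod_cast h1
    · rw [div_lt_iff₀ (hpR e)]
      exact_mod_cast h2
  obtain ⟨hs1, hs2⟩ := hfloor 14
  obtain ⟨hb1, hb2⟩ := hfloor 2
  obtain ⟨hg1, hg2⟩ := hfloor 28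
  obtain ⟨hs'1, hs'2⟩ := hfloor 88
  have hgpos : 0 < n / K ^ 28 := Nat.div_pos hnlarge (hp 28)
  have hgR : (1 : ℝ) ≤ ((n / K ^ 28 : ℕ) : ℝ) := by exact_mod_cast hgpos
  have hNdiv : (NN A : ℝ) < (n : ℝ) ^ 4 / (K : ℝ) ^ 234 := by
    rw [lt_div_iff₀ (hpR 234)]
    exact hN
  have hμ0 : (0 : ℝ) < 1 / (2 * (K : ℝ) ^ 4) := by positivity
  have hμ1 : 1 / (2 * (K : ℝ) ^ 4) ≤ 1 := by
    rw [div_le_one (by positivity)]
    have : (1 : ℝ) ≤ (K : ℝ) ^ 4 := one_le_pow₀ (by linarith)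
    linarith
  have hheavy := L_heavy (s := ((n / K ^ 14 : ℕ) : ℝ)) (b := ((n / K ^ 2 : ℕ) : ℝ))
    (hv := (heavy A (n / K ^ 14) : ℝ)) (N := (NN A : ℝ)) hk14 hx0 hs2 hb2 (by positivity)
    (by exact_mod_cast heavy_mul_le A (n / K ^ 14)) hNdiv
  have hW : n / (n / K ^ 28) / K ^ 14 + 1 < K ^ 15 := by
    generalize hgdef : n / K ^ 28 = g at hgpos ⊢
    have h1 : n < (g + 1) * K ^ 28 := by
      have := Nat.lt_succ_iff.mpr (le_refl (n / K ^ 28))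
      rw [hgdef] at this
      exact (Nat.div_lt_iff_lt_mul (hp 28)).mp (by rw [hgdef]; exact this)
    have h2 : n < g * K ^ 14 * (2 * K ^ 14) := by
      have h3 : (g + 1) * K ^ 28 ≤ (g + g) * K ^ 28 := Nat.mul_le_mul_right _ (by omega)
      have h4 : (g + g) * K ^ 28 = g * K ^ 14 * (2 * K ^ 14) := by ring
      omega
    have h3 : n / g / K ^ 14 < 2 * K ^ 14 := by
      rw [Nat.div_div_eq_div_mul]
      exact Nat.div_lt_of_lt_mul h2
    have h4 : K ^ 15 = K * K ^ 14 := by ring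
    have h5 : 3 * K ^ 14 ≤ K * K ^ 14 := Nat.mul_le_mul_right _ (by omega)
    have h6 := hp 14
    omega
  have hNcount : NN A < (n / K ^ 88 + 1) * (n / K ^ 88 + 1) * (n / K ^ 28 * (n / K ^ 28)) := by
    have h1 := L_count hk14 hx0 hs'2 hg2 hgR hNdiv
    exact_mod_cast h1
  obtain ⟨B, hBfree, hBham⟩ := core hn A K (2 * K ^ 12) (n / K ^ 14) (n / K ^ 2) (n / K ^ 28)
    (K ^ 14) (K ^ 15) (n / K ^ 88) (K ^ 14) (1 / (2 * (K : ℝ) ^ 4))
    hμ0 hμ1 hheavy hgpos (hp 14) hK0 (hp 14) hW hNcount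
  refine ⟨B, hBfree, hBham.trans ?_⟩
  have hfin := L_final (k := (K : ℝ)) (x := (n : ℝ)) (s := ((n / K ^ 14 : ℕ) : ℝ))
    (b := ((n / K ^ 2 : ℕ) : ℝ)) (g := ((n / K ^ 28 : ℕ) : ℝ)) (s' := ((n / K ^ 88 : ℕ) : ℝ))
    (N := (NN A : ℝ)) K rfl hk14 hx0 hs1 hb1 (by positivity) hg1 (by positivity)
    hs'1 hNdiv
  push_cast
  push_cast at hfin
  exact hfin

end Vale.Agent.Lib.P037
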